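import Mathlib

/-! `2 ^ (2 ^ ℵ₀)` ultrafilters on `ℕ` and the characters of the bounded sequences. -/

open Set Filter Topology
open scoped BoundedContinuousFunction

namespace Vale.Agent.P070

abbrev Idx := Finset ℕ × Finset (Finset ℕ)

open Classical in
/-- an independent family of subsets of a countable set. -/
def AX (X : Set ℕ) : Set Idx := {p | p.1.filter (· ∈ X) ∈ p.2}

open Classical in
noncomputable def CX (T : Set (Set ℕ)) (X : Set ℕ) : Set Idx :=
  if X ∈ T then AX X else (AX X)ᶜ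

lemma exists_sep (P : Finset (Set ℕ)) :
    ∃ F : Finset ℕ, ∀ X ∈ P, ∀ Y ∈ P, (∀ n ∈ F, n ∈ X ↔ n ∈ Y) → X = Y := by
  classical
  have h : ∀ q : Set ℕ × Set ℕ, ∃ n, q.1 ≠ q.2 → ¬ (n ∈ q.1 ↔ n ∈ q.2) := by
    intro q
    by_cases hq : q.1 = q.2
    · exact ⟨0, fun h => absurd hq h⟩
    · by_contra hcon
      push Not at hcon
      apply hq
      ext n
      exact (hcon n).2
  choose g hg using h
  refine ⟨(P ×ˢ P).image g, fun X hX Y hY hXY => ?_⟩
  by_contra hne
  exact hg (X, Y) hne (hXY _ (Finset.mem_image.2 ⟨(X, Y), Finset.mem_product.2 ⟨hX, hY⟩, rfl⟩))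

lemma exists_ultra (T : Set (Set ℕ)) : ∃ U : Ultrafilter Idx, ∀ X, CX T X ∈ U := by
  classical
  obtain ⟨U, hU⟩ := Ultrafilter.exists_ultrafilter_of_finite_inter_nonempty
    (CX T '' Set.univ) (by
      intro T' hT'
      obtain ⟨P, -, rfl⟩ := Finset.subset_set_image_iff.1 hT'
      obtain ⟨F, hF⟩ := exists_sep P
      refine ⟨(F, (P.filter (· ∈ T)).image (fun X => F.filter (· ∈ X))), ?_⟩
      rw [Set.mem_sInter]
      intro Z hZ
      obtain ⟨X, hX, rfl⟩ := Finset.mem_image.1 (Finset.mem_coe.1 hZ)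
      unfold CX
      split_ifs with h
      · show F.filter (· ∈ X) ∈ (P.filter (· ∈ T)).image (fun X => F.filter (· ∈ X))
        exact Finset.mem_image.2 ⟨X, Finset.mem_filter.2 ⟨hX, h⟩, rfl⟩
      · intro hmem
        have hmem' : F.filter (· ∈ X) ∈ (P.filter (· ∈ T)).image (fun X => F.filter (· ∈ X)) :=
          hmem
        obtain ⟨Y, hY, hXY⟩ := Finset.mem_image.1 hmem'
        obtain ⟨hYP, hYT⟩ := Finset.mem_filter.1 hY
        have : X = Y := by
          apply hF X hX Y hYP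
          intro n hn
          have h1 : n ∈ F.filter (· ∈ Y) ↔ n ∈ F.filter (· ∈ X) := by rw [hXY]
          simp only [Finset.mem_filter, hn, true_and] at h1
          exact h1.symm
        exact h (this ▸ hYT))
  exact ⟨U, fun X => hU ⟨X, trivial, rfl⟩⟩

/-- there are at least `2 ^ (2 ^ ℵ₀)` ultrafilters on `ℕ`. -/
lemma exists_inj_ultra : ∃ f : Set (Set ℕ) → Ultrafilter ℕ, Function.Injective f := by
  classical
  choose U hU using exists_ultra
  let e : Idx ≃ ℕ := Denumerable.eqv Idx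
  refine ⟨fun T => (U T).map e, fun T T' h => ?_⟩
  have h' : U T = U T' := by
    have := congrArg (fun V : Ultrafilter ℕ => V.map e.symm) h
    simpa [Ultrafilter.map_map] using this
  have key : ∀ T T' : Set (Set ℕ), U T = U T' → T ⊆ T' := by
    intro T T' h X hX
    by_contra hX'
    have h1 := hU T X
    have h2 := hU T' X
    rw [← h] at h2
    rw [CX, if_pos hX] at h1
    rw [CX, if_neg hX'] at h2
    exact (Ultrafilter.compl_mem_iff_notMem.1 h2) h1
  exact Set.Subset.antisymm (key _ _ h') (key _ _ h'.symm)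

/-- the character given by the limit along an ultrafilter. -/
lemma exists_char (V : Ultrafilter ℕ) : ∃ χ : WeakDual.characterSpace ℂ (ℕ →ᵇ ℂ),
    ∀ b : ℕ →ᵇ ℂ, Tendsto b V (𝓝 (χ b)) := by
  have h : ∀ b : ℕ →ᵇ ℂ, ∃ x, Tendsto b V (𝓝 x) := by
    intro b
    obtain ⟨x, -, hx⟩ := (isCompact_closedBall (0 : ℂ) ‖b‖).ultrafilter_le_nhds (V.map b) (by
      rw [le_principal_iff]
      show (b : ℕ → ℂ) ⁻¹' Metric.closedBall 0 ‖b‖ ∈ (V : Filter ℕ)
      exact Filter.univ_mem' (fun n => by simpa using b.norm_coe_le_norm n))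
    exact ⟨x, hx⟩
  choose L hL using h
  have huniq : ∀ (b : ℕ →ᵇ ℂ) (x : ℂ), Tendsto b V (𝓝 x) → L b = x := fun b x hx =>
    tendsto_nhds_unique (hL b) hx
  let g : (ℕ →ᵇ ℂ) →ₗ[ℂ] ℂ :=
    { toFun := L
      map_add' := fun a b => huniq _ _ ((hL a).add (hL b))
      map_smul' := fun c a => huniq _ _ ((hL a).const_smul c) }
  let g' : (ℕ →ᵇ ℂ) →L[ℂ] ℂ := g.mkContinuous 1 (by
    intro b
    rw [one_mul]
    exact le_of_tendsto (hL b).norm (Eventually.of_forall fun n => b.norm_coe_le_norm n))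
  have hmul : ∀ a b, L (a * b) = L a * L b := fun a b => huniq _ _ ((hL a).mul (hL b))
  have hone : L 1 = 1 := huniq _ _ tendsto_const_nhds
  refine ⟨⟨StrongDual.toWeakDual g', ?_, ?_⟩, fun b => hL b⟩
  · intro h0
    have : L 1 = 0 := by
      have := DFunLike.congr_fun h0 (1 : ℕ →ᵇ ℂ)
      exact this
    rw [hone] at this
    exact one_ne_zero this
  · intro a b
    exact hmul a b

/-- the bounded sequences have at least `2 ^ (2 ^ ℵ₀)` characters. -/
theorem exists_inj_char : ∃ f : Set (Set ℕ) → WeakDual.characterSpace ℂ (ℕ →ᵇ ℂ),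
    Function.Injective f := by
  classical
  obtain ⟨f, hf⟩ := exists_inj_ultra
  choose c hc using exists_char
  refine ⟨fun T => c (f T), fun T T' h => hf ?_⟩
  have key : ∀ V W : Ultrafilter ℕ, c V = c W → ∀ S, S ∈ V → S ∈ W := by
    intro V W h S hS
    let b : ℕ →ᵇ ℂ := BoundedContinuousFunction.ofNormedAddCommGroup
      (fun n => if n ∈ S then (1 : ℂ) else 0) (continuous_of_discreteTopology) 1 (by
        intro n
        split_ifs <;> simp)
    have h1 : Tendsto b V (𝓝 1) := by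
      apply tendsto_const_nhds.congr'
      filter_upwards [hS] with n hn
      show (1 : ℂ) = if n ∈ S then (1 : ℂ) else 0
      rw [if_pos hn]
    have h2 : c V b = 1 := tendsto_nhds_unique (hc V b) h1
    have h3 : Tendsto b W (𝓝 1) := by
      rw [← h2, h]; exact hc W b
    by_contra hW
    have h4 : Sᶜ ∈ W := Ultrafilter.compl_mem_iff_notMem.2 hW
    have h5 : Tendsto b W (𝓝 0) := by
      apply tendsto_const_nhds.congr'
      filter_upwards [h4] with n hn
      show (0 : ℂ) = if n ∈ S then (1 : ℂ) else 0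
      rw [if_neg hn]
    exact one_ne_zero (tendsto_nhds_unique h3 h5)
  exact Ultrafilter.ext_iff.2 (fun S => ⟨key _ _ h S, key _ _ h.symm S⟩)

end Vale.Agent.P070
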