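import Vale.Agent.P070.Main
import Vale.Agent.P070.Ultra

/-! Orthonormal eigenvectors for all characters of a subalgebra; the number of characters. -/

open scoped ComplexOrder InnerProductSpace BoundedContinuousFunction
open Set

namespace Vale.Agent.P070

universe u v

/-- in an algebra with property (N), every irreducible representation contains an orthonormal
family of eigenvectors, one for each character of the subalgebra. -/
theorem exists_orthonormal {A : Type u} [NonUnitalCStarAlgebra A] (hN : PropertyN A) {B : Type v}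
    [NonUnitalCStarAlgebra B] (j : B →⋆ₙₐ[ℂ] A) (hj : Function.Injective j)
    {H : Type u} [NormedAddCommGroup H] [InnerProductSpace ℂ H] [CompleteSpace H]
    (π : A →⋆ₙₐ[ℂ] (H →L[ℂ] H)) (hirr : Irred π) :
    ∃ v : WeakDual.characterSpace ℂ B → H, Orthonormal ℂ v ∧
      ∀ χ b, π (j b) (v χ) = χ b • v χ := by
  have key : ∀ χ : WeakDual.characterSpace ℂ B, ∃ v : H, ‖v‖ = 1 ∧
      ∀ b, π (j b) v = χ b • v := by
    intro χ
    obtain ⟨H', i1', i2', i3', π', ξ', hirr', hξ', heig'⟩ := exists_eigen j hj χ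
    obtain ⟨V, hV⟩ := hN.2 H' H π' π hirr' hirr
    refine ⟨V ξ', by rw [V.norm_map, hξ'], fun b => ?_⟩
    rw [← hV, heig', map_smul]
  choose v hv hvb using key
  refine ⟨v, ⟨hv, ?_⟩, hvb⟩
  have hadj : ∀ a x y, ⟪π a x, y⟫_ℂ = ⟪x, π (star a) y⟫_ℂ := by
    intro a x y
    rw [map_star, ContinuousLinearMap.star_eq_adjoint, ContinuousLinearMap.adjoint_inner_right]
  have hlin : ∀ χ χ' : WeakDual.characterSpace ℂ B, ∀ b,
      χ b * ⟪v χ', v χ⟫_ℂ = (starRingEnd ℂ) (χ' (star b)) * ⟪v χ', v χ⟫_ℂ := by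
    intro χ χ' b
    have h1 : ⟪v χ', π (j b) (v χ)⟫_ℂ = χ b * ⟪v χ', v χ⟫_ℂ := by
      rw [hvb, inner_smul_right]
    have h2 : ⟪v χ', π (j b) (v χ)⟫_ℂ = (starRingEnd ℂ) (χ' (star b)) * ⟪v χ', v χ⟫_ℂ := by
      have : j b = star (j (star b)) := by rw [← map_star, star_star]
      rw [this, ← hadj, hvb, inner_smul_left]
    rw [← h1, h2]
  have hstar : ∀ χ : WeakDual.characterSpace ℂ B, ∀ b,
      χ b = (starRingEnd ℂ) (χ (star b)) := by
    intro χ b
    have h := hlin χ χ b
    have h1 : ⟪v χ, v χ⟫_ℂ = 1 := by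
      rw [inner_self_eq_norm_sq_to_K, hv]; simp
    rwa [h1, mul_one, mul_one] at h
  intro χ' χ hne
  have : ∃ b, χ b ≠ χ' b := by
    by_contra hcon
    push Not at hcon
    exact hne (Subtype.ext (DFunLike.ext _ _ hcon)).symm
  obtain ⟨b, hb⟩ := this
  have h := hlin χ χ' b
  rw [← hstar] at h
  have h3 : (χ b - χ' b) * ⟪v χ', v χ⟫_ℂ = 0 := by rw [sub_mul, h, sub_self]
  rcases mul_eq_zero.1 h3 with h4 | h4
  · exact absurd (sub_eq_zero.1 h4) hb
  · exact h4

/-- in an algebra with property (N), the characters of a subalgebra inject into any dense set. -/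
theorem exists_injection {A : Type u} [NonUnitalCStarAlgebra A] (hN : PropertyN A) {B : Type v}
    [NonUnitalCStarAlgebra B] (j : B →⋆ₙₐ[ℂ] A) (hj : Function.Injective j)
    (D : Set A) (hD : Dense D) :
    ∃ f : WeakDual.characterSpace ℂ B → D, Function.Injective f := by
  rcases isEmpty_or_nonempty (WeakDual.characterSpace ℂ B) with hem | ⟨⟨χ₀⟩⟩
  · exact ⟨fun χ => (hem.false χ).elim, fun χ => (hem.false χ).elim⟩
  obtain ⟨H, i1, i2, i3, π, ξ, hirr, hξ, heig⟩ := exists_eigen j hj χ₀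
  obtain ⟨v, hvo, -⟩ := exists_orthonormal hN j hj π hirr
  have hne0 : ∃ b, χ₀ b ≠ 0 := by
    by_contra hcon
    push Not at hcon
    exact χ₀.2.1 (DFunLike.ext _ _ hcon)
  obtain ⟨b₀, hb₀⟩ := hne0
  have hξ0 : ξ ≠ 0 := by
    intro h; rw [h, norm_zero] at hξ; exact zero_ne_one hξ
  have hcyc := cyclic π hirr ξ (j b₀) (by rw [heig]; exact smul_ne_zero hb₀ hξ0)
  have hcont : Continuous fun a => π a ξ := by
    have : Continuous π :=
      AddMonoidHomClass.continuous_of_bound π 1 (fun a => by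
        rw [one_mul]; exact NonUnitalStarAlgHom.norm_apply_le π a)
    exact this.clm_apply continuous_const
  have hdense : DenseRange fun d : D => π (d : A) ξ :=
    hcyc.comp hD.denseRange_val hcont
  have happ : ∀ χ, ∃ d : D, dist (v χ) (π (d : A) ξ) < 1 / 2 := fun χ =>
    hdense.exists_dist_lt (v χ) (by norm_num)
  choose f hf using happ
  refine ⟨f, fun χ χ' h => ?_⟩
  by_contra hne
  have h1 := hf χ
  have h2 := hf χ'
  rw [← h] at h2
  have h3 : dist (v χ) (v χ') < 1 := by
    calc dist (v χ) (v χ') ≤ dist (v χ) (π (f χ : A) ξ) + dist (v χ') (π (f χ : A) ξ) :=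
          dist_triangle_right _ _ _
      _ < 1 := by linarith
  rw [dist_eq_norm] at h3
  have h4 : ‖v χ - v χ'‖ ^ 2 = 2 := by
    have h5 : ⟪v χ - v χ', v χ - v χ'⟫_ℂ = 2 := by
      rw [inner_sub_left, inner_sub_right, inner_sub_right, hvo.2 hne,
        hvo.2 (Ne.symm hne), inner_self_eq_norm_sq_to_K, inner_self_eq_norm_sq_to_K,
        hvo.1, hvo.1]
      norm_num
    rw [inner_self_eq_norm_sq_to_K] at h5
    have h6 : ((‖v χ - v χ'‖ ^ 2 : ℝ) : ℂ) = 2 := by push_cast; exact h5
    exact_mod_cast h6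
  nlinarith [norm_nonneg (v χ - v χ')]

/-- an algebra with property (N) that has a dense subset of cardinality at most the continuum
contains no copy of the algebra of bounded sequences. -/
theorem no_linfty {A : Type u} [NonUnitalCStarAlgebra A] (hN : PropertyN A)
    (D : Set A) (hD : Dense D) (hc : Cardinal.mk D ≤ Cardinal.continuum)
    (j : (ℕ →ᵇ ℂ) →⋆ₙₐ[ℂ] A) : ¬ Function.Injective j := by
  intro hj
  obtain ⟨f, hf⟩ := exists_injection hN j hj D hD
  obtain ⟨g, hg⟩ := exists_inj_char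
  have h1 : Nonempty (D ↪ Set ℕ) := by
    rw [← Cardinal.lift_mk_le']
    rw [Cardinal.mk_set_nat]
    simpa using hc
  obtain ⟨e⟩ := h1
  exact Function.cantor_injective (fun T => e (f (g T))) (e.injective.comp (hf.comp hg))

end Vale.Agent.P070
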