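import Mathlib

/-! Naimark's problem: irreducible representations, unitary equivalence, property (N). -/

namespace Vale.Agent.P070

universe u

/-- `π` is an irreducible representation of the C*-algebra `A` on the Hilbert space `H`:
it is nonzero and `0`, `H` are the only closed invariant subspaces. -/
def Irred {A H : Type u} [NonUnitalCStarAlgebra A] [NormedAddCommGroup H]
    [InnerProductSpace ℂ H] [CompleteSpace H] (π : A →⋆ₙₐ[ℂ] (H →L[ℂ] H)) : Prop :=
  (∃ a, π a ≠ 0) ∧ ∀ K : Submodule ℂ H, IsClosed (K : Set H) →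
    (∀ a : A, ∀ x ∈ K, π a x ∈ K) → K = ⊥ ∨ K = ⊤

/-- Property (N): `A ≠ 0` and any two irreducible representations of `A` are unitarily
equivalent (`≃ₗᵢ[ℂ]` is a surjective linear isometry, that is, a unitary). -/
def PropertyN (A : Type u) [NonUnitalCStarAlgebra A] : Prop :=
  Nontrivial A ∧
  ∀ (H₁ H₂ : Type u) [NormedAddCommGroup H₁] [InnerProductSpace ℂ H₁] [CompleteSpace H₁]
    [NormedAddCommGroup H₂] [InnerProductSpace ℂ H₂] [CompleteSpace H₂]
    (π₁ : A →⋆ₙₐ[ℂ] (H₁ →L[ℂ] H₁)) (π₂ : A →⋆ₙₐ[ℂ] (H₂ →L[ℂ] H₂)),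
    Irred π₁ → Irred π₂ → ∃ U : H₁ ≃ₗᵢ[ℂ] H₂, ∀ a x, U (π₁ a x) = π₂ a (U x)

end Vale.Agent.P070
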