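import Vale.Agent.P070.Card

/-! Irreducible representations with a unit vector killed by a given set: the face version. -/

open scoped ComplexOrder InnerProductSpace
open Set

namespace Vale.Agent.P070

universe u v

/-- states of `U` that vanish on `y* y` for `y` in `Y`. -/
def KY {U : Type u} [CStarAlgebra U] (Y : Set U) : Set (U → ℂ) :=
  {g | (∀ a b, g (a + b) = g a + g b) ∧ (∀ (z : ℂ) a, g (z • a) = z * g a) ∧
    (∀ a, ‖g a‖ ≤ ‖a‖) ∧ g 1 = 1 ∧ ∀ y ∈ Y, g (star y * y) = 0}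

lemma isCompact_KY {U : Type u} [CStarAlgebra U] (Y : Set U) : IsCompact (KY Y) := by
  have hcl : IsClosed (KY Y) := by
    have : KY Y = (⋂ a, ⋂ b, {g : U → ℂ | g (a + b) = g a + g b}) ∩
        ((⋂ z : ℂ, ⋂ a, {g : U → ℂ | g (z • a) = z * g a}) ∩
        ((⋂ a, {g : U → ℂ | ‖g a‖ ≤ ‖a‖}) ∩ ({g : U → ℂ | g 1 = 1} ∩
          (⋂ y ∈ Y, {g : U → ℂ | g (star y * y) = 0})))) := by
      ext g; simp [KY]
    rw [this]
    refine IsClosed.inter ?_ (IsClosed.inter ?_ (IsClosed.inter ?_ (IsClosed.inter ?_ ?_)))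
    · exact isClosed_iInter fun a => isClosed_iInter fun b =>
        isClosed_eq (by fun_prop) (by fun_prop)
    · exact isClosed_iInter fun a => isClosed_iInter fun b =>
        isClosed_eq (by fun_prop) (by fun_prop)
    · exact isClosed_iInter fun a => isClosed_le (by fun_prop) (by fun_prop)
    · exact isClosed_eq (by fun_prop) (by fun_prop)
    · exact isClosed_iInter fun a => isClosed_iInter fun _ =>
        isClosed_eq (by fun_prop) (by fun_prop)
  exact IsCompact.of_isClosed_subset (isCompact_univ_pi fun a : U =>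
      isCompact_closedBall (0 : ℂ) ‖a‖) hcl (by
        intro g hg a _
        simpa using hg.2.2.1 a)

section

variable {U : Type u} [CStarAlgebra U] (Y : Set U)
    {H : Type u} [NormedAddCommGroup H] [InnerProductSpace ℂ H] [CompleteSpace H]
    (π : U →⋆ₐ[ℂ] (H →L[ℂ] H))

lemma mem_KY (v : H) (hv : v ≠ 0) (he : ∀ y ∈ Y, π y v = 0) :
    (fun a => (((‖v‖ ^ 2 : ℝ)) : ℂ)⁻¹ * ⟪v, π a v⟫_ℂ) ∈ KY Y := by
  have hp : 0 < ‖v‖ ^ 2 := by positivity
  have hc : (((‖v‖ ^ 2 : ℝ)) : ℂ) ≠ 0 := by exact_mod_cast hp.ne'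
  refine ⟨fun a b => ?_, fun z a => ?_, fun a => ?_, ?_, fun y hy => ?_⟩
  · simp only [map_add, add_apply, inner_add_right]; ring
  · simp only [map_smul, smul_apply, inner_smul_right]; ring
  · have h1 : ‖⟪v, π a v⟫_ℂ‖ ≤ ‖v‖ ^ 2 * ‖a‖ := by
      calc ‖⟪v, π a v⟫_ℂ‖ ≤ ‖v‖ * ‖π a v‖ := norm_inner_le_norm _ _
        _ ≤ ‖v‖ * (‖π a‖ * ‖v‖) := by gcongr; exact (π a).le_opNorm v
        _ ≤ ‖v‖ * (‖a‖ * ‖v‖) := by gcongr; exact NonUnitalStarAlgHom.norm_apply_le π a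
        _ = ‖v‖ ^ 2 * ‖a‖ := by ring
    rw [norm_mul, norm_inv, Complex.norm_real, Real.norm_of_nonneg hp.le]
    rw [inv_mul_le_iff₀ hp]
    exact h1
  · show _ * ⟪v, π 1 v⟫_ℂ = _
    rw [map_one, one_apply_eq_self, inner_self_eq_norm_sq_to_K]
    push_cast at hc ⊢
    exact inv_mul_cancel₀ hc
  · show _ * ⟪v, π (star y * y) v⟫_ℂ = 0
    rw [map_mul, mul_apply_eq_comp, he y hy, map_zero, inner_zero_right, mul_zero]

lemma irred_of_extreme' (ξ : H) (hd : DenseRange fun a => π a ξ)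
    (φ : U → ℂ) (hφ : ∀ a, φ a = ⟪ξ, π a ξ⟫_ℂ) (hext : φ ∈ extremePoints ℝ (KY Y)) :
    ‖ξ‖ = 1 ∧ (∀ y ∈ Y, π y ξ = 0) ∧
      ∀ K : Submodule ℂ H, IsClosed (K : Set H) → (∀ a, ∀ x ∈ K, π a x ∈ K) → K = ⊥ ∨ K = ⊤ := by
  have hK0 := hext.1
  have hadj : ∀ a x y, ⟪π a x, y⟫_ℂ = ⟪x, π (star a) y⟫_ℂ := by
    intro a x y
    rw [map_star, ContinuousLinearMap.star_eq_adjoint, ContinuousLinearMap.adjoint_inner_right]
  have hone : ⟪ξ, ξ⟫_ℂ = 1 := by
    have h := hK0.2.2.2.1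
    rw [hφ] at h
    simpa using h
  have hnorm : ‖ξ‖ = 1 := by
    rw [inner_self_eq_norm_sq_to_K] at hone
    have h2' : ((‖ξ‖ ^ 2 : ℝ) : ℂ) = 1 := by push_cast; exact hone
    have h2 : ‖ξ‖ ^ 2 = 1 := by exact_mod_cast h2'
    nlinarith [norm_nonneg ξ]
  have heig : ∀ y ∈ Y, π y ξ = 0 := by
    intro y hy
    have h2 : ⟪π y ξ, π y ξ⟫_ℂ = 0 := by
      rw [hadj, ← mul_apply_eq_comp, ← map_mul, ← hφ, hK0.2.2.2.2 y hy]
    exact inner_self_eq_zero.1 h2
  refine ⟨hnorm, heig, fun K hK hinv => ?_⟩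
  have : CompleteSpace K := hK.completeSpace_coe
  have hinv' : ∀ a, ∀ y ∈ Kᗮ, π a y ∈ Kᗮ := by
    intro a y hy
    rw [Submodule.mem_orthogonal] at hy ⊢
    intro x hx
    have := hy (π (star a) x) (hinv _ _ hx)
    rwa [hadj, star_star] at this
  set η : H := K.starProjection ξ with hηd
  have hη : η ∈ K := Submodule.starProjection_apply_mem _ _
  set ζ : H := ξ - η with hζd
  have hζ : ζ ∈ Kᗮ := Submodule.sub_starProjection_mem_orthogonal _
  have hsum : ξ = η + ζ := by simp [hζd]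
  have hcr1 : ∀ a, ⟪η, π a ζ⟫_ℂ = 0 := fun a =>
    Submodule.inner_right_of_mem_orthogonal hη (hinv' a ζ hζ)
  have hcr2 : ∀ a, ⟪ζ, π a η⟫_ℂ = 0 := fun a =>
    Submodule.inner_left_of_mem_orthogonal (hinv a η hη) hζ
  have hdec : ∀ a, φ a = ⟪η, π a η⟫_ℂ + ⟪ζ, π a ζ⟫_ℂ := by
    intro a
    rw [hφ, hsum, map_add, inner_add_left, inner_add_right, inner_add_right, hcr1, hcr2]
    ring
  have hself : ∀ v ∈ K, v ∈ Kᗮ → v = 0 := by
    intro v h1 h2
    have := Submodule.inner_right_of_mem_orthogonal h1 h2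
    rwa [inner_self_eq_zero] at this
  have hboth : ∀ y ∈ Y, π y η = 0 ∧ π y ζ = 0 := by
    intro y hy
    have h1 := heig y hy
    rw [hsum, map_add] at h1
    have h2 : π y η = - π y ζ := eq_neg_of_add_eq_zero_left h1
    have h3 : π y η = 0 := by
      apply hself _ (hinv _ _ hη)
      rw [h2]; exact Kᗮ.neg_mem (hinv' _ _ hζ)
    rw [h3, zero_add] at h1
    exact ⟨h3, h1⟩
  by_cases h0 : η = 0
  · left
    have h1 : ξ ∈ Kᗮ := by rw [hsum, h0, zero_add]; exact hζ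
    have h2 : (Kᗮ : Set H) = univ := by
      apply eq_univ_of_univ_subset
      rw [← hd.closure_range]
      exact closure_minimal (by rintro _ ⟨a, rfl⟩; exact hinv' a ξ h1)
        (Submodule.isClosed_orthogonal K)
    rw [eq_bot_iff]
    intro x hx
    have h3 : x ∈ (Kᗮ : Set H) := by rw [h2]; trivial
    exact (Submodule.mem_bot ℂ).2 (hself x hx h3)
  by_cases h0' : ζ = 0
  · right
    have h1 : ξ ∈ K := by rw [hsum, h0', add_zero]; exact hη
    have h2 : (K : Set H) = univ := by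
      apply eq_univ_of_univ_subset
      rw [← hd.closure_range]
      exact closure_minimal (by rintro _ ⟨a, rfl⟩; exact hinv a ξ h1) hK
    rw [eq_top_iff]
    intro x _
    have h3 : x ∈ (K : Set H) := by rw [h2]; trivial
    exact h3
  exfalso
  have ht : 0 < ‖η‖ ^ 2 := by positivity
  have hs : 0 < ‖ζ‖ ^ 2 := by positivity
  have hts : ‖η‖ ^ 2 + ‖ζ‖ ^ 2 = 1 := by
    have h := hdec 1
    have h' := hK0.2.2.2.1
    rw [h', map_one] at h
    simp only [one_apply_eq_self, inner_self_eq_norm_sq_to_K] at h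
    have : ((‖η‖ ^ 2 + ‖ζ‖ ^ 2 : ℝ) : ℂ) = 1 := by push_cast; exact h.symm
    exact_mod_cast this
  have hct : (((‖η‖ ^ 2 : ℝ)) : ℂ) ≠ 0 := by exact_mod_cast ht.ne'
  have hcs : (((‖ζ‖ ^ 2 : ℝ)) : ℂ) ≠ 0 := by exact_mod_cast hs.ne'
  have hm1 := mem_KY Y π η h0 (fun y hy => (hboth y hy).1)
  have hm2 := mem_KY Y π ζ h0' (fun y hy => (hboth y hy).2)
  have hseg : φ ∈ openSegment ℝ (fun a => (((‖η‖ ^ 2 : ℝ)) : ℂ)⁻¹ * ⟪η, π a η⟫_ℂ)
      (fun a => (((‖ζ‖ ^ 2 : ℝ)) : ℂ)⁻¹ * ⟪ζ, π a ζ⟫_ℂ) := by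
    refine ⟨‖η‖ ^ 2, ‖ζ‖ ^ 2, ht, hs, hts, ?_⟩
    funext a
    simp only [Pi.add_apply, Pi.smul_apply, Complex.real_smul]
    rw [hdec a, mul_inv_cancel_left₀ hct, mul_inv_cancel_left₀ hcs]
  have heq := (mem_extremePoints.1 hext).2 _ hm1 _ hm2 hseg
  have h1 : ∀ a, ⟪η, π a η⟫_ℂ = ((‖η‖ ^ 2 : ℝ) : ℂ) * φ a := by
    intro a
    have this : (((‖η‖ ^ 2 : ℝ)) : ℂ)⁻¹ * ⟪η, π a η⟫_ℂ = φ a := congrFun heq.1 a
    rw [← this, mul_inv_cancel_left₀ hct]
  have h2 : ∀ a, ⟪η - ((‖η‖ ^ 2 : ℝ) : ℂ) • ξ, π a ξ⟫_ℂ = 0 := by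
    intro a
    rw [inner_sub_left, inner_smul_left, ← hφ, Complex.conj_ofReal, ← h1]
    nth_rewrite 1 [hsum]
    rw [map_add, inner_add_right, hcr1, add_zero, sub_self]
  have h3 : η - ((‖η‖ ^ 2 : ℝ) : ℂ) • ξ = 0 := by
    have h4 : ∀ y, ⟪η - ((‖η‖ ^ 2 : ℝ) : ℂ) • ξ, y⟫_ℂ = 0 := by
      intro y
      refine hd.induction_on (p := fun y => ⟪η - ((‖η‖ ^ 2 : ℝ) : ℂ) • ξ, y⟫_ℂ = 0) y
        (isClosed_eq (by fun_prop) (by fun_prop)) h2
    exact inner_self_eq_zero.1 (h4 _)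
  have h5 : ζ = 0 := by
    apply hself _ _ hζ
    have h6 : ((‖η‖ ^ 2 : ℝ) : ℂ) • ζ = η - ((‖η‖ ^ 2 : ℝ) : ℂ) • η := by
      have : ((‖η‖ ^ 2 : ℝ) : ℂ) • ξ = ((‖η‖ ^ 2 : ℝ) : ℂ) • η + ((‖η‖ ^ 2 : ℝ) : ℂ) • ζ := by
        rw [← smul_add, ← hsum]
      rw [this] at h3
      rw [eq_sub_iff_add_eq, add_comm]
      exact (sub_eq_zero.1 h3).symm
    have h7 : ζ = (((‖η‖ ^ 2 : ℝ) : ℂ))⁻¹ • (η - ((‖η‖ ^ 2 : ℝ) : ℂ) • η) := by
      rw [← h6, smul_smul, inv_mul_cancel₀ hct, one_smul]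
    rw [h7]
    exact K.smul_mem _ (K.sub_mem hη (K.smul_mem _ hη))
  exact h0' h5

end

/-- nonempty face gives an irreducible representation with a unit vector killed by `Y`. -/
theorem exists_rep' {U : Type u} [CStarAlgebra U] [Nontrivial U] (Y : Set U)
    (hY : (KY Y).Nonempty) :
    ∃ (H : Type u) (_ : NormedAddCommGroup H) (_ : InnerProductSpace ℂ H) (_ : CompleteSpace H)
      (π : U →⋆ₐ[ℂ] (H →L[ℂ] H)) (ξ : H), ‖ξ‖ = 1 ∧ (∀ y ∈ Y, π y ξ = 0) ∧
      ∀ K : Submodule ℂ H, IsClosed (K : Set H) → (∀ a, ∀ x ∈ K, π a x ∈ K) →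
        K = ⊥ ∨ K = ⊤ := by
  let _ : PartialOrder U := CStarAlgebra.spectralOrder U
  have : StarOrderedRing U := CStarAlgebra.spectralOrderedRing U
  obtain ⟨φ, hφ⟩ := (isCompact_KY Y).extremePoints_nonempty hY
  have hK := hφ.1
  let g : U →ₗ[ℂ] ℂ :=
    { toFun := φ
      map_add' := hK.1
      map_smul' := fun z a => hK.2.1 z a }
  have hg1 : g 1 = 1 := hK.2.2.2.1
  let f : U →ₚ[ℂ] ℂ := PositiveLinearMap.mk₀ g (fun x hx => pos_of_norm g hK.2.2.1 hg1 x hx)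
  have hf : ∀ a, f a = φ a := fun a => rfl
  let ξ : f.GNS := ((f.toPreGNS 1 : f.PreGNS) : f.GNS)
  have hπ : ∀ a, f.gnsStarAlgHom a ξ = ((f.toPreGNS a : f.PreGNS) : f.GNS) := by
    intro a
    show f.gnsNonUnitalStarAlgHom a ((f.toPreGNS 1 : f.PreGNS) : f.GNS) = _
    rw [PositiveLinearMap.gnsNonUnitalStarAlgHom_apply_coe]
    simp
  have hd : DenseRange fun a => f.gnsStarAlgHom a ξ := by
    have : (fun a => f.gnsStarAlgHom a ξ) =
        (fun x : f.PreGNS => (x : f.GNS)) ∘ f.toPreGNS := by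
      funext a; exact hπ a
    rw [this]
    exact UniformSpace.Completion.denseRange_coe.comp f.toPreGNS.surjective.denseRange
      (UniformSpace.Completion.continuous_coe _)
  have hin : ∀ a, φ a = ⟪ξ, f.gnsStarAlgHom a ξ⟫_ℂ := by
    intro a
    rw [hπ, UniformSpace.Completion.inner_coe, PositiveLinearMap.preGNS_inner_def]
    simp [hf]
  obtain ⟨h1, h2, h3⟩ := irred_of_extreme' Y f.gnsStarAlgHom ξ hd φ hin hφ
  exact ⟨f.GNS, inferInstance, inferInstance, inferInstance, f.gnsStarAlgHom, ξ, h1, h2, h3⟩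

/-- for every nonzero `e` some representation does not kill `e`. -/
theorem exists_nonzero {U : Type u} [CStarAlgebra U] [Nontrivial U] (e : U) (he : e ≠ 0) :
    ∃ (H : Type u) (_ : NormedAddCommGroup H) (_ : InnerProductSpace ℂ H) (_ : CompleteSpace H)
      (π : U →⋆ₐ[ℂ] (H →L[ℂ] H)) (ξ : H), π e ξ ≠ 0 := by
  set h : U := star e * e with hh
  have hsa : IsSelfAdjoint h := IsSelfAdjoint.star_mul_self e
  have hne : h ≠ 0 := by
    intro h0
    apply he
    have : ‖star e * e‖ = ‖e‖ * ‖e‖ := CStarRing.norm_star_mul_self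
    rw [← hh, h0, norm_zero] at this
    have h1 : ‖e‖ = 0 := by nlinarith [norm_nonneg e]
    exact norm_eq_zero.1 h1
  have : IsStarNormal h := hsa.isStarNormal
  let h' : StarAlgebra.elemental ℂ h := ⟨h, StarAlgebra.elemental.self_mem ℂ h⟩
  have hsa' : IsSelfAdjoint h' := Subtype.ext hsa
  obtain ⟨z, hz, hzn⟩ := spectrum.exists_nnnorm_eq_spectralRadius h'
  rw [hsa'.spectralRadius_eq_nnnorm] at hzn
  have hz0 : z ≠ 0 := by
    intro h0
    rw [h0] at hzn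
    have h1 : ‖h'‖₊ = 0 := by
      have : (0 : ENNReal) = (‖h'‖₊ : ENNReal) := by simpa using hzn
      exact_mod_cast this.symm
    have h2 : h' = 0 := nnnorm_eq_zero.1 h1
    exact hne (congrArg Subtype.val h2)
  obtain ⟨χ, hχ⟩ := WeakDual.CharacterSpace.mem_spectrum_iff_exists.1 hz
  obtain ⟨H, i1, i2, i3, π, ξ, h1, h2, h3⟩ := exists_rep (StarAlgebra.elemental ℂ h).subtype
    Subtype.val_injective (WeakDual.CharacterSpace.toAlgHom χ)
  refine ⟨H, i1, i2, i3, π, ξ, fun h0 => ?_⟩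
  have h4 : π h ξ = z • ξ := by
    have := h2 h'
    rw [← hχ]
    exact this
  rw [hh, map_mul, mul_apply_eq_comp, h0, map_zero] at h4
  rcases smul_eq_zero.1 h4.symm with h5 | h5
  · exact hz0 h5
  · rw [h5, norm_zero] at h1
    exact zero_ne_one h1

/-- an ultrafilter gives an irreducible representation with a vector on which every separating
element acts as one or zero. -/
theorem exists_ultra_rep {A : Type u} [NonUnitalCStarAlgebra A] (e : ℕ → A)
    (he : ∀ n, e n ≠ 0) (x : Set ℕ → A) (hx1 : ∀ S n, n ∈ S → x S * e n = e n)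
    (hx0 : ∀ S n, n ∉ S → x S * e n = 0) (V : Ultrafilter ℕ) :
    ∃ (H : Type u) (_ : NormedAddCommGroup H) (_ : InnerProductSpace ℂ H) (_ : CompleteSpace H)
      (π : A →⋆ₙₐ[ℂ] (H →L[ℂ] H)) (ξ : H), Irred π ∧ ‖ξ‖ = 1 ∧
      (∀ S ∈ V, π (x S) ξ = ξ) ∧ ∀ S ∉ V, π (x S) ξ = 0 := by
  classical
  let y : Set ℕ → Unitization ℂ A := fun S =>
    if S ∈ V then (x S : Unitization ℂ A) - 1 else (x S : Unitization ℂ A)
  have hne : (KY (Set.range y)).Nonempty := by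
    have h1 : (KY (∅ : Set (Unitization ℂ A)) ∩
        ⋂ S : Set ℕ, {g : Unitization ℂ A → ℂ | g (star (y S) * y S) = 0}).Nonempty := by
      apply IsCompact.inter_iInter_nonempty (isCompact_KY _)
      · intro S
        exact isClosed_eq (by fun_prop) (by fun_prop)
      · intro P
        have h2 : ∃ n, ∀ S ∈ P, (n ∈ S ↔ S ∈ V) := by
          have h3 : (⋂ S ∈ P, (if S ∈ V then S else Sᶜ : Set ℕ)) ∈ V := by
            refine (Filter.biInter_finset_mem P).2 (fun S _ => ?_)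
            by_cases hS : S ∈ V
            · rw [if_pos hS]; exact hS
            · rw [if_neg hS]; exact Ultrafilter.compl_mem_iff_notMem.2 hS
          obtain ⟨n, hn⟩ := V.nonempty_of_mem h3
          refine ⟨n, fun S hS => ?_⟩
          have h4 := Set.mem_iInter₂.1 hn S hS
          by_cases hSV : S ∈ V
          · rw [if_pos hSV] at h4
            exact ⟨fun _ => hSV, fun _ => h4⟩
          · rw [if_neg hSV] at h4
            exact ⟨fun h => absurd h h4, fun h => absurd h hSV⟩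
        obtain ⟨n, hn⟩ := h2
        have hen : ((e n : A) : Unitization ℂ A) ≠ 0 := by
          intro h0
          exact he n (Unitization.inr_injective (R := ℂ) (h0.trans (Unitization.inr_zero ℂ).symm))
        obtain ⟨H, i1, i2, i3, π, ξ, hπ⟩ := exists_nonzero _ hen
        have hkill : ∀ S ∈ P, π (y S) (π (e n : Unitization ℂ A) ξ) = 0 := by
          intro S hS
          have h5 : y S * (e n : Unitization ℂ A) = 0 := by
            by_cases hSV : S ∈ V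
            · simp only [y, if_pos hSV]
              rw [sub_mul, one_mul, ← Unitization.inr_mul, hx1 S n ((hn S hS).2 hSV), sub_self]
            · simp only [y, if_neg hSV]
              rw [← Unitization.inr_mul, hx0 S n (fun h => hSV ((hn S hS).1 h))]
              simp
          rw [← mul_apply_eq_comp, ← map_mul, h5, map_zero]
          rfl
        have h6 := mem_KY (y '' (P : Set (Set ℕ))) π _ hπ (by
          rintro _ ⟨S, hS, rfl⟩
          exact hkill S hS)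
        refine ⟨_, ⟨h6.1, h6.2.1, h6.2.2.1, h6.2.2.2.1, by simp⟩, ?_⟩
        rw [Set.mem_iInter₂]
        intro S hS
        exact h6.2.2.2.2 (y S) ⟨S, hS, rfl⟩
    obtain ⟨g, hg, hg'⟩ := h1
    refine ⟨g, hg.1, hg.2.1, hg.2.2.1, hg.2.2.2.1, ?_⟩
    rintro _ ⟨S, rfl⟩
    exact Set.mem_iInter.1 hg' S
  obtain ⟨H, i1, i2, i3, π, ξ, h1, h2, h3⟩ := exists_rep' (Set.range y) hne
  have hA : ∀ S ∈ V, restr π (x S) ξ = ξ := by
    intro S hS
    have := h2 (y S) ⟨S, rfl⟩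
    simp only [y, if_pos hS] at this
    rw [map_sub, map_one] at this
    have h5 : π (x S : Unitization ℂ A) ξ - ξ = 0 := this
    exact sub_eq_zero.1 h5
  have hB : ∀ S ∉ V, restr π (x S) ξ = 0 := by
    intro S hS
    have := h2 (y S) ⟨S, rfl⟩
    simp only [y, if_neg hS] at this
    exact this
  refine ⟨H, i1, i2, i3, restr π, ξ, irred_restr π h3 ⟨x Set.univ, fun h0 => ?_⟩, h1, hA, hB⟩
  have h4 := hA Set.univ Filter.univ_mem
  rw [h0] at h4
  have h5 : ξ = 0 := h4.symm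
  rw [h5, norm_zero] at h1
  exact zero_ne_one h1

end Vale.Agent.P070
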