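import Vale.Agent.P070.Sep

/-! Families of any infinite size. -/

open Set Filter Topology
open scoped ComplexOrder InnerProductSpace

namespace Vale.Agent.P070.Gen

universe u

variable {ι : Type u}

abbrev Idx (ι : Type u) := Finset ι × Finset (Finset ι)

open Classical in
/-- an independent family of subsets of a countable set. -/
def AX (X : Set ι) : Set (Idx ι) := {p | p.1.filter (· ∈ X) ∈ p.2}

open Classical in
noncomputable def CX (T : Set (Set ι)) (X : Set ι) : Set (Idx ι) :=
  if X ∈ T then AX X else (AX X)ᶜ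

lemma exists_sep [Nonempty ι] (P : Finset (Set ι)) :
    ∃ F : Finset ι, ∀ X ∈ P, ∀ Y ∈ P, (∀ n ∈ F, n ∈ X ↔ n ∈ Y) → X = Y := by
  classical
  have h : ∀ q : Set ι × Set ι, ∃ n, q.1 ≠ q.2 → ¬ (n ∈ q.1 ↔ n ∈ q.2) := by
    intro q
    by_cases hq : q.1 = q.2
    · exact ⟨Classical.arbitrary ι, fun h => absurd hq h⟩
    · by_contra hcon
      push Not at hcon
      apply hq
      ext n
      exact (hcon n).2
  choose g hg using h
  refine ⟨(P ×ˢ P).image g, fun X hX Y hY hXY => ?_⟩
  by_contra hne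
  exact hg (X, Y) hne (hXY _ (Finset.mem_image.2 ⟨(X, Y), Finset.mem_product.2 ⟨hX, hY⟩, rfl⟩))

lemma exists_ultra [Nonempty ι] (T : Set (Set ι)) : ∃ U : Ultrafilter (Idx ι), ∀ X, CX T X ∈ U := by
  classical
  obtain ⟨U, hU⟩ := Ultrafilter.exists_ultrafilter_of_finite_inter_nonempty
    (CX T '' Set.univ) (by
      intro T' hT'
      obtain ⟨P, -, rfl⟩ := Finset.subset_set_image_iff.1 hT'
      obtain ⟨F, hF⟩ := exists_sep P
      refine ⟨(F, (P.filter (· ∈ T)).image (fun X => F.filter (· ∈ X))), ?_⟩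
      rw [Set.mem_sInter]
      intro Z hZ
      obtain ⟨X, hX, rfl⟩ := Finset.mem_image.1 (Finset.mem_coe.1 hZ)
      unfold CX
      split_ifs with h
      · show F.filter (· ∈ X) ∈ (P.filter (· ∈ T)).image (fun X => F.filter (· ∈ X))
        exact Finset.mem_image.2 ⟨X, Finset.mem_filter.2 ⟨hX, h⟩, rfl⟩
      · intro hmem
        have hmem' : F.filter (· ∈ X) ∈ (P.filter (· ∈ T)).image (fun X => F.filter (· ∈ X)) :=
          hmem
        obtain ⟨Y, hY, hXY⟩ := Finset.mem_image.1 hmem'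
        obtain ⟨hYP, hYT⟩ := Finset.mem_filter.1 hY
        have : X = Y := by
          apply hF X hX Y hYP
          intro n hn
          have h1 : n ∈ F.filter (· ∈ Y) ↔ n ∈ F.filter (· ∈ X) := by rw [hXY]
          simp only [Finset.mem_filter, hn, true_and] at h1
          exact h1.symm
        exact h (this ▸ hYT))
  exact ⟨U, fun X => hU ⟨X, trivial, rfl⟩⟩

/-- there are at least `2 ^ (2 ^ κ)` ultrafilters on a set of infinite cardinality `κ`. -/
lemma exists_inj_ultra (ι : Type u) [Infinite ι] :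
    ∃ f : Set (Set ι) → Ultrafilter ι, Function.Injective f := by
  classical
  choose U hU using exists_ultra (ι := ι)
  have hcard : Cardinal.mk (Idx ι) = Cardinal.mk ι := by
    simp [Idx, Cardinal.mk_finset_of_infinite]
  obtain ⟨e⟩ := Cardinal.eq.1 hcard
  refine ⟨fun T => (U T).map e, fun T T' h => ?_⟩
  have h' : U T = U T' := by
    have := congrArg (fun V : Ultrafilter ι => V.map e.symm) h
    simpa [Ultrafilter.map_map] using this
  have key : ∀ T T' : Set (Set ι), U T = U T' → T ⊆ T' := by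
    intro T T' h X hX
    by_contra hX'
    have h1 := hU T X
    have h2 := hU T' X
    rw [← h] at h2
    rw [CX, if_pos hX] at h1
    rw [CX, if_neg hX'] at h2
    exact (Ultrafilter.compl_mem_iff_notMem.1 h2) h1
  exact Set.Subset.antisymm (key _ _ h') (key _ _ h'.symm)

/-- an ultrafilter gives an irreducible representation with a vector on which every separating
element acts as one or zero. -/
theorem exists_ultra_rep {A : Type u} [NonUnitalCStarAlgebra A] (e : ι → A)
    (he : ∀ n, e n ≠ 0) (x : Set ι → A) (hx1 : ∀ S n, n ∈ S → x S * e n = e n)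
    (hx0 : ∀ S n, n ∉ S → x S * e n = 0) (V : Ultrafilter ι) :
    ∃ (H : Type u) (_ : NormedAddCommGroup H) (_ : InnerProductSpace ℂ H) (_ : CompleteSpace H)
      (π : A →⋆ₙₐ[ℂ] (H →L[ℂ] H)) (ξ : H), Irred π ∧ ‖ξ‖ = 1 ∧
      (∀ S ∈ V, π (x S) ξ = ξ) ∧ ∀ S ∉ V, π (x S) ξ = 0 := by
  classical
  let y : Set ι → Unitization ℂ A := fun S =>
    if S ∈ V then (x S : Unitization ℂ A) - 1 else (x S : Unitization ℂ A)
  have hne : (KY (Set.range y)).Nonempty := by
    have h1 : (KY (∅ : Set (Unitization ℂ A)) ∩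
        ⋂ S : Set ι, {g : Unitization ℂ A → ℂ | g (star (y S) * y S) = 0}).Nonempty := by
      apply IsCompact.inter_iInter_nonempty (isCompact_KY _)
      · intro S
        exact isClosed_eq (by fun_prop) (by fun_prop)
      · intro P
        have h2 : ∃ n, ∀ S ∈ P, (n ∈ S ↔ S ∈ V) := by
          have h3 : (⋂ S ∈ P, (if S ∈ V then S else Sᶜ : Set ι)) ∈ V := by
            refine (Filter.biInter_finset_mem P).2 (fun S _ => ?_)
            by_cases hS : S ∈ V
            · rw [if_pos hS]; exact hS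
            · rw [if_neg hS]; exact Ultrafilter.compl_mem_iff_notMem.2 hS
          obtain ⟨n, hn⟩ := V.nonempty_of_mem h3
          refine ⟨n, fun S hS => ?_⟩
          have h4 := Set.mem_iInter₂.1 hn S hS
          by_cases hSV : S ∈ V
          · rw [if_pos hSV] at h4
            exact ⟨fun _ => hSV, fun _ => h4⟩
          · rw [if_neg hSV] at h4
            exact ⟨fun h => absurd h h4, fun h => absurd h hSV⟩
        obtain ⟨n, hn⟩ := h2
        have hen : ((e n : A) : Unitization ℂ A) ≠ 0 := by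
          intro h0
          exact he n (Unitization.inr_injective (R := ℂ) (h0.trans (Unitization.inr_zero ℂ).symm))
        obtain ⟨H, i1, i2, i3, π, ξ, hπ⟩ := exists_nonzero _ hen
        have hkill : ∀ S ∈ P, π (y S) (π (e n : Unitization ℂ A) ξ) = 0 := by
          intro S hS
          have h5 : y S * (e n : Unitization ℂ A) = 0 := by
            by_cases hSV : S ∈ V
            · simp only [y, if_pos hSV]
              rw [sub_mul, one_mul, ← Unitization.inr_mul, hx1 S n ((hn S hS).2 hSV), sub_self]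
            · simp only [y, if_neg hSV]
              rw [← Unitization.inr_mul, hx0 S n (fun h => hSV ((hn S hS).1 h))]
              simp
          rw [← mul_apply_eq_comp, ← map_mul, h5, map_zero]
          rfl
        have h6 := mem_KY (y '' (P : Set (Set ι))) π _ hπ (by
          rintro _ ⟨S, hS, rfl⟩
          exact hkill S hS)
        refine ⟨_, ⟨h6.1, h6.2.1, h6.2.2.1, h6.2.2.2.1, by simp⟩, ?_⟩
        rw [Set.mem_iInter₂]
        intro S hS
        exact h6.2.2.2.2 (y S) ⟨S, hS, rfl⟩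
    obtain ⟨g, hg, hg'⟩ := h1
    refine ⟨g, hg.1, hg.2.1, hg.2.2.1, hg.2.2.2.1, ?_⟩
    rintro _ ⟨S, rfl⟩
    exact Set.mem_iInter.1 hg' S
  obtain ⟨H, i1, i2, i3, π, ξ, h1, h2, h3⟩ := exists_rep' (Set.range y) hne
  have hA : ∀ S ∈ V, restr π (x S) ξ = ξ := by
    intro S hS
    have := h2 (y S) ⟨S, rfl⟩
    simp only [y, if_pos hS] at this
    rw [map_sub, map_one] at this
    have h5 : π (x S : Unitization ℂ A) ξ - ξ = 0 := this
    exact sub_eq_zero.1 h5
  have hB : ∀ S ∉ V, restr π (x S) ξ = 0 := by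
    intro S hS
    have := h2 (y S) ⟨S, rfl⟩
    simp only [y, if_neg hS] at this
    exact this
  refine ⟨H, i1, i2, i3, restr π, ξ, irred_restr π h3 ⟨x Set.univ, fun h0 => ?_⟩, h1, hA, hB⟩
  have h4 := hA Set.univ Filter.univ_mem
  rw [h0] at h4
  have h5 : ξ = 0 := h4.symm
  rw [h5, norm_zero] at h1
  exact zero_ne_one h1

theorem inj_of_separated [Infinite ι] {A : Type u} [NonUnitalCStarAlgebra A] (hN : PropertyN A) (e : ι → A)
    (he : ∀ n, e n ≠ 0) (x : Set ι → A) (hsa : ∀ S, IsSelfAdjoint (x S))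
    (hx1 : ∀ S n, n ∈ S → x S * e n = e n) (hx0 : ∀ S n, n ∉ S → x S * e n = 0)
    (D : Set A) (hD : Dense D) :
    ∃ f : Ultrafilter ι → D, Function.Injective f := by
  obtain ⟨H, i1, i2, i3, π, ξ, hirr, hξ, hA, -⟩ :=
    exists_ultra_rep e he x hx1 hx0 (Filter.hyperfilter ι)
  have key : ∀ V : Ultrafilter ι, ∃ v : H, ‖v‖ = 1 ∧ (∀ S ∈ V, π (x S) v = v) ∧
      ∀ S ∉ V, π (x S) v = 0 := by
    intro V
    obtain ⟨H', i1', i2', i3', π', ξ', hirr', hξ', hA', hB'⟩ :=
      exists_ultra_rep e he x hx1 hx0 V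
    obtain ⟨W, hW⟩ := hN.2 H' H π' π hirr' hirr
    refine ⟨W ξ', by rw [W.norm_map, hξ'], fun S hS => ?_, fun S hS => ?_⟩
    · rw [← hW, hA' S hS]
    · rw [← hW, hB' S hS, map_zero]
  choose v hv hv1 hv0 using key
  have hadj : ∀ a x y, ⟪π a x, y⟫_ℂ = ⟪x, π (star a) y⟫_ℂ := by
    intro a x y
    rw [map_star, ContinuousLinearMap.star_eq_adjoint, ContinuousLinearMap.adjoint_inner_right]
  have hvo : Orthonormal ℂ v := by
    refine ⟨hv, fun V W hne => ?_⟩
    have : ∃ S, S ∈ V ∧ S ∉ W := by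
      by_contra hcon
      push Not at hcon
      apply hne
      have hle : (W : Filter ι) ≤ V := fun S hS => hcon S hS
      exact (Ultrafilter.coe_le_coe.1 hle).symm
    obtain ⟨S, hSV, hSW⟩ := this
    show ⟪v V, v W⟫_ℂ = 0
    rw [← hv1 V S hSV, hadj, (hsa S).star_eq, hv0 W S hSW, inner_zero_right]
  have hne : π (x Set.univ) ξ ≠ 0 := by
    rw [hA Set.univ Filter.univ_mem]
    intro h
    rw [h, norm_zero] at hξ
    exact zero_ne_one hξ
  exact inj_of_orthonormal π hirr ξ _ hne v hvo D hD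


theorem card_of_family {A : Type u} [NonUnitalCStarAlgebra A] (hN : PropertyN A) (ι : Type u)
    [Infinite ι] (hs : SeparatesAFamily ι A) (D : Set A) (hD : Dense D) :
    2 ^ (2 ^ Cardinal.mk ι : Cardinal.{u}) ≤ Cardinal.mk D := by
  obtain ⟨e, he, hx⟩ := hs
  choose x hsa hx1 hx0 using hx
  obtain ⟨f, hf⟩ := inj_of_separated hN e he x hsa hx1 hx0 D hD
  obtain ⟨g, hg⟩ := exists_inj_ultra ι
  have h1 := Cardinal.mk_le_of_injective (hf.comp hg)
  simpa [Cardinal.mk_set] using h1

end Vale.Agent.P070.Gen
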