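import Vale.Agent.P070.Rep

/-! The number of characters of a subalgebra of an algebra with property (N). -/

open scoped ComplexOrder InnerProductSpace
open Set

namespace Vale.Agent.P070

universe u v

/-- unital version: every character of a unital subalgebra `C` of `U` has an eigenvector in an
irreducible representation of `U`. -/
theorem exists_rep {U : Type u} [CStarAlgebra U] [Nontrivial U] {C : Type v} [CStarAlgebra C]
    [Nontrivial C] (J : C →⋆ₐ[ℂ] U) (hJ : Function.Injective J) (ψ : C →ₐ[ℂ] ℂ) :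
    ∃ (H : Type u) (_ : NormedAddCommGroup H) (_ : InnerProductSpace ℂ H) (_ : CompleteSpace H)
      (π : U →⋆ₐ[ℂ] (H →L[ℂ] H)) (ξ : H), ‖ξ‖ = 1 ∧ (∀ c, π (J c) ξ = ψ c • ξ) ∧
      ∀ K : Submodule ℂ H, IsClosed (K : Set H) → (∀ a, ∀ x ∈ K, π a x ∈ K) →
        K = ⊥ ∨ K = ⊤ := by
  let _ : PartialOrder U := CStarAlgebra.spectralOrder U
  have : StarOrderedRing U := CStarAlgebra.spectralOrderedRing U
  obtain ⟨φ, hφ⟩ := exists_extreme J hJ ψ
  have hK := hφ.1
  let g : U →ₗ[ℂ] ℂ :=
    { toFun := φ
      map_add' := hK.1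
      map_smul' := fun z a => hK.2.1 z a }
  have hg1 : g 1 = 1 := by
    have := hK.2.2.2 1
    rwa [map_one, map_one] at this
  let f : U →ₚ[ℂ] ℂ := PositiveLinearMap.mk₀ g (fun x hx => pos_of_norm g hK.2.2.1 hg1 x hx)
  have hf : ∀ a, f a = φ a := fun a => rfl
  let ξ : f.GNS := ((f.toPreGNS 1 : f.PreGNS) : f.GNS)
  have hπ : ∀ a, f.gnsStarAlgHom a ξ = ((f.toPreGNS a : f.PreGNS) : f.GNS) := by
    intro a
    show f.gnsNonUnitalStarAlgHom a ((f.toPreGNS 1 : f.PreGNS) : f.GNS) = _
    rw [PositiveLinearMap.gnsNonUnitalStarAlgHom_apply_coe]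
    simp
  have hd : DenseRange fun a => f.gnsStarAlgHom a ξ := by
    have : (fun a => f.gnsStarAlgHom a ξ) =
        (fun x : f.PreGNS => (x : f.GNS)) ∘ f.toPreGNS := by
      funext a; exact hπ a
    rw [this]
    exact UniformSpace.Completion.denseRange_coe.comp f.toPreGNS.surjective.denseRange
      (UniformSpace.Completion.continuous_coe _)
  have hin : ∀ a, φ a = ⟪ξ, f.gnsStarAlgHom a ξ⟫_ℂ := by
    intro a
    rw [hπ, UniformSpace.Completion.inner_coe, PositiveLinearMap.preGNS_inner_def]
    simp [hf]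
  obtain ⟨h1, h2, h3⟩ := irred_of_extreme J ψ f.gnsStarAlgHom ξ hd φ hin hφ
  exact ⟨f.GNS, inferInstance, inferInstance, inferInstance, f.gnsStarAlgHom, ξ, h1, h2, h3⟩

/-- the restriction of a representation of the unitization to `A`. -/
noncomputable def restr {A H : Type u} [NonUnitalCStarAlgebra A] [NormedAddCommGroup H]
    [InnerProductSpace ℂ H] [CompleteSpace H]
    (π : Unitization ℂ A →⋆ₐ[ℂ] (H →L[ℂ] H)) : A →⋆ₙₐ[ℂ] (H →L[ℂ] H) :=
  ((π : Unitization ℂ A →⋆ₙₐ[ℂ] (H →L[ℂ] H))).comp (Unitization.inrNonUnitalStarAlgHom ℂ A)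

lemma restr_apply {A H : Type u} [NonUnitalCStarAlgebra A] [NormedAddCommGroup H]
    [InnerProductSpace ℂ H] [CompleteSpace H]
    (π : Unitization ℂ A →⋆ₐ[ℂ] (H →L[ℂ] H)) (a : A) :
    restr π a = π (a : Unitization ℂ A) := rfl

lemma irred_restr {A H : Type u} [NonUnitalCStarAlgebra A] [NormedAddCommGroup H]
    [InnerProductSpace ℂ H] [CompleteSpace H]
    (π : Unitization ℂ A →⋆ₐ[ℂ] (H →L[ℂ] H))
    (hirr : ∀ K : Submodule ℂ H, IsClosed (K : Set H) → (∀ a, ∀ x ∈ K, π a x ∈ K) →
        K = ⊥ ∨ K = ⊤) (hne : ∃ a : A, restr π a ≠ 0) : Irred (restr π) := by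
  refine ⟨hne, fun K hK hinv => ?_⟩
  have hr : ∀ (w : Unitization ℂ A) (a : A), w * (a : Unitization ℂ A) =
      ((w.fst • a + w.snd * a : A) : Unitization ℂ A) := by
    intro w a; ext <;> simp
  have hl : ∀ (w : Unitization ℂ A) (a : A), (a : Unitization ℂ A) * w =
      ((w.fst • a + a * w.snd : A) : Unitization ℂ A) := by
    intro w a; ext <;> simp
  let S : Set H := {y | ∃ a : A, ∃ x ∈ K, y = restr π a x}
  let K' : Submodule ℂ H := (Submodule.span ℂ S).topologicalClosure
  have hK'le : K' ≤ K := by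
    apply Submodule.topologicalClosure_minimal _ _ hK
    rw [Submodule.span_le]
    rintro y ⟨a, x, hx, rfl⟩
    exact hinv a x hx
  have hK'inv : ∀ w, ∀ x ∈ K', π w x ∈ K' := by
    intro w x hx
    have h1 : ∀ y ∈ Submodule.span ℂ S, π w y ∈ Submodule.span ℂ S := by
      intro y hy
      induction hy using Submodule.span_induction with
      | mem y hy =>
        obtain ⟨a, x, hx, rfl⟩ := hy
        apply Submodule.subset_span
        refine ⟨w.fst • a + w.snd * a, x, hx, ?_⟩
        rw [restr_apply, restr_apply, ← hr, map_mul]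
        rfl
      | zero => simp
      | add y z _ _ hy hz => rw [map_add]; exact Submodule.add_mem _ hy hz
      | smul c y _ hy => rw [map_smul]; exact Submodule.smul_mem _ c hy
    have h2 : Set.MapsTo (π w) (Submodule.span ℂ S : Set H) (Submodule.span ℂ S : Set H) :=
      fun y hy => h1 y hy
    have h3 := h2.closure (π w).continuous
    have h4 : x ∈ closure (Submodule.span ℂ S : Set H) := by
      rw [← Submodule.topologicalClosure_coe]; exact hx
    have h5 := h3 h4
    rw [← Submodule.topologicalClosure_coe] at h5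
    exact h5
  rcases hirr K' (Submodule.isClosed_topologicalClosure _) hK'inv with h | h
  · left
    let Z : Submodule ℂ H :=
      { carrier := {x | ∀ a : A, restr π a x = 0}
        add_mem' := by
          intro x y hx hy a
          rw [map_add, hx a, hy a, add_zero]
        zero_mem' := by intro a; simp
        smul_mem' := by
          intro c x hx a
          rw [map_smul, hx a, smul_zero] }
    have hZc : IsClosed (Z : Set H) := by
      have : (Z : Set H) = ⋂ a : A, {x | restr π a x = 0} := by
        ext x; simp [Z]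
      rw [this]
      exact isClosed_iInter fun a => isClosed_eq (restr π a).continuous continuous_const
    have hZinv : ∀ w, ∀ x ∈ Z, π w x ∈ Z := by
      intro w x hx a
      have h1 : restr π a (π w x) = restr π (w.fst • a + a * w.snd) x := by
        rw [restr_apply, restr_apply, ← hl, map_mul]
        rfl
      rw [h1]; exact hx _
    rcases hirr Z hZc hZinv with h' | h'
    · rw [eq_bot_iff]
      intro x hx
      rw [← h']
      intro a
      have : restr π a x ∈ K' :=
        Submodule.le_topologicalClosure _ (Submodule.subset_span ⟨a, x, hx, rfl⟩)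
      rw [h] at this
      exact (Submodule.mem_bot ℂ).1 this
    · exfalso
      obtain ⟨a, ha⟩ := hne
      apply ha
      ext x
      have : x ∈ Z := by rw [h']; trivial
      exact this a
  · right
    rw [eq_top_iff, ← h]
    exact hK'le

lemma cyclic {A H : Type u} [NonUnitalCStarAlgebra A] [NormedAddCommGroup H]
    [InnerProductSpace ℂ H] [CompleteSpace H] (π : A →⋆ₙₐ[ℂ] (H →L[ℂ] H)) (hπ : Irred π)
    (x : H) (a₀ : A) (hx : π a₀ x ≠ 0) : DenseRange fun a => π a x := by
  let L : A →ₗ[ℂ] H :=
    { toFun := fun a => π a x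
      map_add' := by intro a b; simp
      map_smul' := by intro c a; simp }
  let K : Submodule ℂ H := (LinearMap.range L).topologicalClosure
  have hinv : ∀ a, ∀ y ∈ K, π a y ∈ K := by
    intro a y hy
    have h2 : Set.MapsTo (π a) (LinearMap.range L : Set H) (LinearMap.range L : Set H) := by
      rintro _ ⟨b, rfl⟩
      exact ⟨a * b, by simp [L]⟩
    have h3 := h2.closure (π a).continuous
    have h4 : y ∈ closure (LinearMap.range L : Set H) := by
      rw [← Submodule.topologicalClosure_coe]; exact hy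
    have h5 := h3 h4
    rw [← Submodule.topologicalClosure_coe] at h5
    exact h5
  rcases hπ.2 K (Submodule.isClosed_topologicalClosure _) hinv with h | h
  · exfalso
    have : π a₀ x ∈ K := Submodule.le_topologicalClosure _ ⟨a₀, rfl⟩
    rw [h] at this
    exact hx ((Submodule.mem_bot ℂ).1 this)
  · have h1 : (K : Set H) = univ := by rw [h]; rfl
    rw [DenseRange, dense_iff_closure_eq]
    rw [← h1]
    show closure (Set.range fun a => π a x) = ((LinearMap.range L).topologicalClosure : Set H)
    rw [Submodule.topologicalClosure_coe]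
    rfl

/-- every character of a subalgebra has an eigenvector in an irreducible representation. -/
theorem exists_eigen {A : Type u} [NonUnitalCStarAlgebra A] {B : Type v}
    [NonUnitalCStarAlgebra B] (j : B →⋆ₙₐ[ℂ] A) (hj : Function.Injective j)
    (χ : WeakDual.characterSpace ℂ B) :
    ∃ (H : Type u) (_ : NormedAddCommGroup H) (_ : InnerProductSpace ℂ H) (_ : CompleteSpace H)
      (π : A →⋆ₙₐ[ℂ] (H →L[ℂ] H)) (ξ : H), Irred π ∧ ‖ξ‖ = 1 ∧
      ∀ b, π (j b) ξ = χ b • ξ := by
  obtain ⟨H, i1, i2, i3, π, ξ, h1, h2, h3⟩ := exists_rep (Unitization.starMap j)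
    (Unitization.starMap_injective hj)
    (Unitization.lift (WeakDual.CharacterSpace.toNonUnitalAlgHom χ))
  have h4 : ∀ b, restr π (j b) ξ = χ b • ξ := by
    intro b
    have := h2 (b : Unitization ℂ B)
    simpa [restr_apply] using this
  refine ⟨H, i1, i2, i3, restr π, ξ, ?_, h1, h4⟩
  apply irred_restr π h3
  have hχ : ∃ b, χ b ≠ 0 := by
    by_contra hcon
    push Not at hcon
    exact χ.2.1 (DFunLike.ext _ _ hcon)
  obtain ⟨b, hb⟩ := hχ
  refine ⟨j b, fun h0 => ?_⟩
  have h5 := h4 b
  rw [h0] at h5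
  have h6 : ξ = 0 := by
    rcases smul_eq_zero.1 h5.symm with h | h
    · exact absurd h hb
    · exact h
  rw [h6, norm_zero] at h1
  exact zero_ne_one h1

end Vale.Agent.P070
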