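import Vale.Agent.P070.Defs

/-! Pure extensions of characters and the corresponding irreducible representations. -/

open scoped ComplexOrder InnerProductSpace
open Set

namespace Vale.Agent.P070

universe u v

lemma ext_char {U : Type u} [CStarAlgebra U] {C : Type v} [CStarAlgebra C] [Nontrivial C]
    (J : C →⋆ₐ[ℂ] U) (hJ : Function.Injective J) (ψ : C →ₐ[ℂ] ℂ) :
    ∃ g : StrongDual ℂ U, ‖g‖ ≤ 1 ∧ ∀ c, g (J c) = ψ c := by
  let p : Submodule ℂ U := LinearMap.range J.toAlgHom.toLinearMap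
  let e : C ≃ₗ[ℂ] p := LinearEquiv.ofInjective J.toAlgHom.toLinearMap hJ
  have hn : ∀ c, ‖J c‖ = ‖c‖ := NonUnitalStarAlgHom.norm_map J hJ
  have he : ∀ c, ((e c : p) : U) = J c := fun c => rfl
  let f0 : p →ₗ[ℂ] ℂ := ψ.toLinearMap ∘ₗ e.symm.toLinearMap
  have hb : ∀ x : p, ‖f0 x‖ ≤ 1 * ‖x‖ := by
    intro x
    obtain ⟨c, rfl⟩ := e.surjective x
    have h1 : f0 (e c) = ψ c := by simp [f0]
    have h2 : ‖e c‖ = ‖c‖ := by
      rw [← hn c, ← he c]; rfl
    rw [h1, h2, one_mul]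
    exact AlgHom.norm_apply_le_self ψ c
  let f : StrongDual ℂ p := f0.mkContinuous 1 hb
  obtain ⟨g, hg, hgn⟩ := exists_extension_norm_eq p f
  refine ⟨g, ?_, fun c => ?_⟩
  · rw [hgn]
    exact LinearMap.mkContinuous_norm_le _ zero_le_one _
  · have h3 := hg (e c)
    rw [he] at h3
    rw [h3]
    simp [f, f0]

lemma pos_of_norm {U : Type u} [CStarAlgebra U] [Nontrivial U] [PartialOrder U]
    [StarOrderedRing U] (g : U →ₗ[ℂ] ℂ) (hg : ∀ a, ‖g a‖ ≤ ‖a‖) (h1 : g 1 = 1) (x : U)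
    (hx : 0 ≤ x) : 0 ≤ g x := by
  have hsa : star x = x := (IsSelfAdjoint.of_nonneg hx).star_eq
  have him : (g x).im = 0 := by
    have key : ∀ t : ℝ, 2 * (g x).im * t ≤ ‖x‖ ^ 2 := by
      intro t
      have e1 : ‖g (x + ((t : ℂ) * Complex.I) • (1 : U))‖ ^ 2
          ≤ ‖x + ((t : ℂ) * Complex.I) • (1 : U)‖ ^ 2 := by
        gcongr; exact hg _
      have e2 : ‖x + ((t : ℂ) * Complex.I) • (1 : U)‖ ^ 2 ≤ ‖x‖ ^ 2 + t ^ 2 := by
        rw [sq, ← CStarRing.norm_star_mul_self]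
        have : star (x + ((t : ℂ) * Complex.I) • (1 : U)) * (x + ((t : ℂ) * Complex.I) • (1 : U))
            = x * x + ((t : ℂ) ^ 2) • (1 : U) := by
          have hz : star ((t : ℂ) * Complex.I) = - ((t : ℂ) * Complex.I) := by
            simp [Complex.conj_ofReal]
          have h4 : ((t : ℂ) * Complex.I) * ((t : ℂ) * Complex.I) = - (t : ℂ) ^ 2 := by
            ring_nf; simp
          simp only [star_add, star_smul, star_one, hsa, mul_add, add_mul, mul_one,
            one_mul, smul_mul_assoc, mul_smul_comm, hz, neg_smul, smul_add, smul_neg,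
            neg_mul, smul_smul, h4]
          simp only [neg_neg]
          abel
        rw [this]
        calc _ ≤ ‖x * x‖ + ‖((t : ℂ) ^ 2) • (1 : U)‖ := norm_add_le _ _
          _ ≤ ‖x‖ ^ 2 + t ^ 2 := by
            have : ‖x * x‖ ≤ ‖x‖ ^ 2 := by rw [sq]; exact norm_mul_le _ _
            have h6 : ‖((t : ℂ) ^ 2) • (1 : U)‖ = t ^ 2 := by
              rw [norm_smul]; simp
            linarith
      have e3 : ‖g (x + ((t : ℂ) * Complex.I) • (1 : U))‖ ^ 2
          = (g x).re ^ 2 + ((g x).im + t) ^ 2 := by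
        rw [map_add, map_smul, h1, ← Complex.normSq_eq_norm_sq, Complex.normSq_apply]
        simp; ring
      nlinarith [sq_nonneg (g x).re, sq_nonneg (g x).im]
    by_contra hne
    have h7 := key ((‖x‖ ^ 2 + 1) / (2 * (g x).im))
    rw [mul_div_cancel₀] at h7
    · linarith
    · exact mul_ne_zero two_ne_zero hne
  have hre : 0 ≤ (g x).re := by
    have hle : x ≤ algebraMap ℝ U ‖x‖ := IsSelfAdjoint.le_algebraMap_norm_self hsa
    have h8 : ‖algebraMap ℝ U ‖x‖ - x‖ ≤ ‖x‖ := by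
      have h9 := CStarAlgebra.norm_le_norm_of_nonneg_of_le (sub_nonneg.2 hle)
        (sub_le_self _ hx)
      refine h9.trans ?_
      rw [norm_algebraMap']
      simp
    have h10 := (hg (algebraMap ℝ U ‖x‖ - x)).trans h8
    have h11 : g (algebraMap ℝ U ‖x‖ - x) = (‖x‖ : ℂ) - g x := by
      rw [map_sub, Algebra.algebraMap_eq_smul_one]
      have : (‖x‖ : ℝ) • (1 : U) = ((‖x‖ : ℝ) : ℂ) • (1 : U) := by
        rw [Complex.coe_smul]
      rw [this, map_smul, h1]
      simp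
    rw [h11] at h10
    have h12 : |((‖x‖ : ℂ) - g x).re| ≤ ‖x‖ := (Complex.abs_re_le_norm _).trans h10
    simp only [Complex.sub_re, Complex.ofReal_re] at h12
    rw [abs_le] at h12
    linarith
  rw [Complex.nonneg_iff]
  exact ⟨hre, him.symm⟩

/-- linear functionals of norm at most one that extend `ψ`. -/
def KK {U : Type u} [CStarAlgebra U] {C : Type v} [CStarAlgebra C]
    (J : C →⋆ₐ[ℂ] U) (ψ : C →ₐ[ℂ] ℂ) : Set (U → ℂ) :=
  {g | (∀ a b, g (a + b) = g a + g b) ∧ (∀ (z : ℂ) a, g (z • a) = z * g a) ∧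
    (∀ a, ‖g a‖ ≤ ‖a‖) ∧ ∀ c, g (J c) = ψ c}

lemma exists_extreme {U : Type u} [CStarAlgebra U] {C : Type v} [CStarAlgebra C] [Nontrivial C]
    (J : C →⋆ₐ[ℂ] U) (hJ : Function.Injective J) (ψ : C →ₐ[ℂ] ℂ) :
    ∃ g : U → ℂ, g ∈ extremePoints ℝ (KK J ψ) := by
  have hcl : IsClosed (KK J ψ) := by
    have : KK J ψ = (⋂ a, ⋂ b, {g : U → ℂ | g (a + b) = g a + g b}) ∩
        ((⋂ z : ℂ, ⋂ a, {g : U → ℂ | g (z • a) = z * g a}) ∩
        ((⋂ a, {g : U → ℂ | ‖g a‖ ≤ ‖a‖}) ∩ (⋂ c, {g : U → ℂ | g (J c) = ψ c}))) := by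
      ext g; simp [KK]
    rw [this]
    refine IsClosed.inter ?_ (IsClosed.inter ?_ (IsClosed.inter ?_ ?_))
    · exact isClosed_iInter fun a => isClosed_iInter fun b =>
        isClosed_eq (by fun_prop) (by fun_prop)
    · exact isClosed_iInter fun a => isClosed_iInter fun b =>
        isClosed_eq (by fun_prop) (by fun_prop)
    · exact isClosed_iInter fun a => isClosed_le (by fun_prop) (by fun_prop)
    · exact isClosed_iInter fun a => isClosed_eq (by fun_prop) (by fun_prop)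
  have hco : IsCompact (KK J ψ) :=
    IsCompact.of_isClosed_subset (isCompact_univ_pi fun a : U =>
      isCompact_closedBall (0 : ℂ) ‖a‖) hcl (by
        intro g hg a _
        simpa using hg.2.2.1 a)
  have hne : (KK J ψ).Nonempty := by
    obtain ⟨g, hg, hgc⟩ := ext_char J hJ ψ
    refine ⟨g, by simp, by simp, fun a => ?_, hgc⟩
    calc ‖g a‖ ≤ ‖g‖ * ‖a‖ := g.le_opNorm a
      _ ≤ 1 * ‖a‖ := by gcongr
      _ = ‖a‖ := one_mul _
  exact hco.extremePoints_nonempty hne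

end Vale.Agent.P070
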