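import Vale.Agent.P070.Pure

/-! An extreme extension of a character gives an irreducible representation with an eigenvector. -/

open scoped ComplexOrder InnerProductSpace
open Set

namespace Vale.Agent.P070

universe u v

section

variable {U : Type u} [CStarAlgebra U] {C : Type v} [CStarAlgebra C] [Nontrivial C]
    (J : C →⋆ₐ[ℂ] U) (ψ : C →ₐ[ℂ] ℂ)
    {H : Type u} [NormedAddCommGroup H] [InnerProductSpace ℂ H] [CompleteSpace H]
    (π : U →⋆ₐ[ℂ] (H →L[ℂ] H))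

omit [Nontrivial C] in
lemma mem_KK (v : H) (hv : v ≠ 0) (he : ∀ c, π (J c) v = ψ c • v) :
    (fun a => (((‖v‖ ^ 2 : ℝ)) : ℂ)⁻¹ * ⟪v, π a v⟫_ℂ) ∈ KK J ψ := by
  have hp : 0 < ‖v‖ ^ 2 := by positivity
  have hc : (((‖v‖ ^ 2 : ℝ)) : ℂ) ≠ 0 := by exact_mod_cast hp.ne'
  refine ⟨fun a b => ?_, fun z a => ?_, fun a => ?_, fun c => ?_⟩
  · simp only [map_add, add_apply, inner_add_right]; ring
  · simp only [map_smul, smul_apply, inner_smul_right]; ring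
  · have h1 : ‖⟪v, π a v⟫_ℂ‖ ≤ ‖v‖ ^ 2 * ‖a‖ := by
      calc ‖⟪v, π a v⟫_ℂ‖ ≤ ‖v‖ * ‖π a v‖ := norm_inner_le_norm _ _
        _ ≤ ‖v‖ * (‖π a‖ * ‖v‖) := by gcongr; exact (π a).le_opNorm v
        _ ≤ ‖v‖ * (‖a‖ * ‖v‖) := by gcongr; exact NonUnitalStarAlgHom.norm_apply_le π a
        _ = ‖v‖ ^ 2 * ‖a‖ := by ring
    rw [norm_mul, norm_inv, Complex.norm_real, Real.norm_of_nonneg hp.le]
    rw [inv_mul_le_iff₀ hp]
    exact h1
  · show _ * ⟪v, π (J c) v⟫_ℂ = _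
    rw [he, inner_smul_right, inner_self_eq_norm_sq_to_K]
    push_cast at hc ⊢
    field_simp
    simp
    ring

lemma irred_of_extreme (ξ : H) (hd : DenseRange fun a => π a ξ)
    (φ : U → ℂ) (hφ : ∀ a, φ a = ⟪ξ, π a ξ⟫_ℂ) (hext : φ ∈ extremePoints ℝ (KK J ψ)) :
    ‖ξ‖ = 1 ∧ (∀ c, π (J c) ξ = ψ c • ξ) ∧
      ∀ K : Submodule ℂ H, IsClosed (K : Set H) → (∀ a, ∀ x ∈ K, π a x ∈ K) → K = ⊥ ∨ K = ⊤ := by
  have hK0 := hext.1
  have hadj : ∀ a x y, ⟪π a x, y⟫_ℂ = ⟪x, π (star a) y⟫_ℂ := by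
    intro a x y
    rw [map_star, ContinuousLinearMap.star_eq_adjoint, ContinuousLinearMap.adjoint_inner_right]
  have hone : ⟪ξ, ξ⟫_ℂ = 1 := by
    have h := hK0.2.2.2 1
    rw [hφ] at h
    simpa using h
  have hnorm : ‖ξ‖ = 1 := by
    rw [inner_self_eq_norm_sq_to_K] at hone
    have h2' : ((‖ξ‖ ^ 2 : ℝ) : ℂ) = 1 := by push_cast; exact hone
    have h2 : ‖ξ‖ ^ 2 = 1 := by exact_mod_cast h2'
    nlinarith [norm_nonneg ξ]
  have heig : ∀ c, π (J c) ξ = ψ c • ξ := by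
    intro c
    have h1 : π (J (c - algebraMap ℂ C (ψ c))) ξ = π (J c) ξ - ψ c • ξ := by
      rw [map_sub, map_sub]
      have : J (algebraMap ℂ C (ψ c)) = algebraMap ℂ U (ψ c) := AlgHomClass.commutes J _
      rw [this]
      have : π (algebraMap ℂ U (ψ c)) = algebraMap ℂ _ (ψ c) := AlgHomClass.commutes π _
      rw [this]
      simp [Algebra.algebraMap_eq_smul_one]
    set c' := c - algebraMap ℂ C (ψ c) with hc'
    have h0 : ψ c' = 0 := by simp [hc']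
    have h2 : ⟪π (J c') ξ, π (J c') ξ⟫_ℂ = 0 := by
      rw [hadj, ← mul_apply_eq_comp, ← map_mul, ← map_star, ← map_mul, ← hφ,
        hK0.2.2.2, map_mul, h0, mul_zero]
    rw [inner_self_eq_zero, h1, sub_eq_zero] at h2
    exact h2
  refine ⟨hnorm, heig, fun K hK hinv => ?_⟩
  have : CompleteSpace K := hK.completeSpace_coe
  have hinv' : ∀ a, ∀ y ∈ Kᗮ, π a y ∈ Kᗮ := by
    intro a y hy
    rw [Submodule.mem_orthogonal] at hy ⊢
    intro x hx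
    have := hy (π (star a) x) (hinv _ _ hx)
    rwa [hadj, star_star] at this
  set η : H := K.starProjection ξ with hηd
  have hη : η ∈ K := Submodule.starProjection_apply_mem _ _
  set ζ : H := ξ - η with hζd
  have hζ : ζ ∈ Kᗮ := Submodule.sub_starProjection_mem_orthogonal _
  have hsum : ξ = η + ζ := by simp [hζd]
  have hcr1 : ∀ a, ⟪η, π a ζ⟫_ℂ = 0 := fun a =>
    Submodule.inner_right_of_mem_orthogonal hη (hinv' a ζ hζ)
  have hcr2 : ∀ a, ⟪ζ, π a η⟫_ℂ = 0 := fun a =>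
    Submodule.inner_left_of_mem_orthogonal (hinv a η hη) hζ
  have hdec : ∀ a, φ a = ⟪η, π a η⟫_ℂ + ⟪ζ, π a ζ⟫_ℂ := by
    intro a
    rw [hφ, hsum, map_add, inner_add_left, inner_add_right, inner_add_right, hcr1, hcr2]
    ring
  have hself : ∀ v ∈ K, v ∈ Kᗮ → v = 0 := by
    intro v h1 h2
    have := Submodule.inner_right_of_mem_orthogonal h1 h2
    rwa [inner_self_eq_zero] at this
  have hboth : ∀ c, π (J c) η = ψ c • η ∧ π (J c) ζ = ψ c • ζ := by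
    intro c
    have h1 := heig c
    rw [hsum, map_add, smul_add] at h1
    have h2 : π (J c) η - ψ c • η = ψ c • ζ - π (J c) ζ := by
      rw [sub_eq_sub_iff_add_eq_add, h1, add_comm]
    have h3 : π (J c) η - ψ c • η = 0 := by
      apply hself
      · exact K.sub_mem (hinv _ _ hη) (K.smul_mem _ hη)
      · rw [h2]; exact Kᗮ.sub_mem (Kᗮ.smul_mem _ hζ) (hinv' _ _ hζ)
    rw [h3] at h2
    exact ⟨sub_eq_zero.1 h3, (sub_eq_zero.1 h2.symm).symm⟩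
  by_cases h0 : η = 0
  · left
    have h1 : ξ ∈ Kᗮ := by rw [hsum, h0, zero_add]; exact hζ
    have h2 : (Kᗮ : Set H) = univ := by
      apply eq_univ_of_univ_subset
      rw [← hd.closure_range]
      exact closure_minimal (by rintro _ ⟨a, rfl⟩; exact hinv' a ξ h1)
        (Submodule.isClosed_orthogonal K)
    rw [eq_bot_iff]
    intro x hx
    have h3 : x ∈ (Kᗮ : Set H) := by rw [h2]; trivial
    exact (Submodule.mem_bot ℂ).2 (hself x hx h3)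
  by_cases h0' : ζ = 0
  · right
    have h1 : ξ ∈ K := by rw [hsum, h0', add_zero]; exact hη
    have h2 : (K : Set H) = univ := by
      apply eq_univ_of_univ_subset
      rw [← hd.closure_range]
      exact closure_minimal (by rintro _ ⟨a, rfl⟩; exact hinv a ξ h1) hK
    rw [eq_top_iff]
    intro x _
    have h3 : x ∈ (K : Set H) := by rw [h2]; trivial
    exact h3
  exfalso
  have ht : 0 < ‖η‖ ^ 2 := by positivity
  have hs : 0 < ‖ζ‖ ^ 2 := by positivity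
  have hts : ‖η‖ ^ 2 + ‖ζ‖ ^ 2 = 1 := by
    have h := hdec 1
    have h' := hK0.2.2.2 1
    rw [map_one, map_one] at h'
    rw [h', map_one] at h
    simp only [one_apply_eq_self, inner_self_eq_norm_sq_to_K] at h
    have : ((‖η‖ ^ 2 + ‖ζ‖ ^ 2 : ℝ) : ℂ) = 1 := by push_cast; exact h.symm
    exact_mod_cast this
  have hct : (((‖η‖ ^ 2 : ℝ)) : ℂ) ≠ 0 := by exact_mod_cast ht.ne'
  have hcs : (((‖ζ‖ ^ 2 : ℝ)) : ℂ) ≠ 0 := by exact_mod_cast hs.ne'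
  have hm1 := mem_KK J ψ π η h0 (fun c => (hboth c).1)
  have hm2 := mem_KK J ψ π ζ h0' (fun c => (hboth c).2)
  have hseg : φ ∈ openSegment ℝ (fun a => (((‖η‖ ^ 2 : ℝ)) : ℂ)⁻¹ * ⟪η, π a η⟫_ℂ)
      (fun a => (((‖ζ‖ ^ 2 : ℝ)) : ℂ)⁻¹ * ⟪ζ, π a ζ⟫_ℂ) := by
    refine ⟨‖η‖ ^ 2, ‖ζ‖ ^ 2, ht, hs, hts, ?_⟩
    funext a
    simp only [Pi.add_apply, Pi.smul_apply, Complex.real_smul]
    rw [hdec a, mul_inv_cancel_left₀ hct, mul_inv_cancel_left₀ hcs]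
  have heq := (mem_extremePoints.1 hext).2 _ hm1 _ hm2 hseg
  have h1 : ∀ a, ⟪η, π a η⟫_ℂ = ((‖η‖ ^ 2 : ℝ) : ℂ) * φ a := by
    intro a
    have this : (((‖η‖ ^ 2 : ℝ)) : ℂ)⁻¹ * ⟪η, π a η⟫_ℂ = φ a := congrFun heq.1 a
    rw [← this, mul_inv_cancel_left₀ hct]
  have h2 : ∀ a, ⟪η - ((‖η‖ ^ 2 : ℝ) : ℂ) • ξ, π a ξ⟫_ℂ = 0 := by
    intro a
    rw [inner_sub_left, inner_smul_left, ← hφ, Complex.conj_ofReal, ← h1]
    nth_rewrite 1 [hsum]
    rw [map_add, inner_add_right, hcr1, add_zero, sub_self]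
  have h3 : η - ((‖η‖ ^ 2 : ℝ) : ℂ) • ξ = 0 := by
    have h4 : ∀ y, ⟪η - ((‖η‖ ^ 2 : ℝ) : ℂ) • ξ, y⟫_ℂ = 0 := by
      intro y
      refine hd.induction_on (p := fun y => ⟪η - ((‖η‖ ^ 2 : ℝ) : ℂ) • ξ, y⟫_ℂ = 0) y
        (isClosed_eq (by fun_prop) (by fun_prop)) h2
    exact inner_self_eq_zero.1 (h4 _)
  have h5 : ζ = 0 := by
    apply hself _ _ hζ
    have h6 : ((‖η‖ ^ 2 : ℝ) : ℂ) • ζ = η - ((‖η‖ ^ 2 : ℝ) : ℂ) • η := by
      have : ((‖η‖ ^ 2 : ℝ) : ℂ) • ξ = ((‖η‖ ^ 2 : ℝ) : ℂ) • η + ((‖η‖ ^ 2 : ℝ) : ℂ) • ζ := by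
        rw [← smul_add, ← hsum]
      rw [this] at h3
      rw [eq_sub_iff_add_eq, add_comm]
      exact (sub_eq_zero.1 h3).symm
    have h7 : ζ = (((‖η‖ ^ 2 : ℝ) : ℂ))⁻¹ • (η - ((‖η‖ ^ 2 : ℝ) : ℂ) • η) := by
      rw [← h6, smul_smul, inv_mul_cancel₀ hct, one_smul]
    rw [h7]
    exact K.smul_mem _ (K.sub_mem hη (K.smul_mem _ hη))
  exact h0' h5

end

end Vale.Agent.P070
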