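import Vale.Agent.P070.Sep

/-! SAW*-algebras with an infinite orthogonal sequence separate a sequence. -/

namespace Vale.Agent.P070

universe u

lemma sq_ne {A : Type u} [NonUnitalCStarAlgebra A] {h : A} (hs : IsSelfAdjoint h) (h0 : h ≠ 0) :
    h * h ≠ 0 := by
  intro hh
  apply h0
  have : ‖star h * h‖ = ‖h‖ * ‖h‖ := CStarRing.norm_star_mul_self
  rw [hs.star_eq, hh, norm_zero] at this
  have h1 : ‖h‖ = 0 := by nlinarith [norm_nonneg h]
  exact norm_eq_zero.1 h1

lemma cube_ne {A : Type u} [NonUnitalCStarAlgebra A] {h : A} (hs : IsSelfAdjoint h)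
    (h0 : h ≠ 0) : h * h * h ≠ 0 := by
  intro hh
  have h1 : IsSelfAdjoint (h * h) := by
    rw [IsSelfAdjoint, star_mul, hs.star_eq]
  apply sq_ne h1 (sq_ne hs h0)
  rw [← mul_assoc, hh, zero_mul]

theorem separates_of_saw {A : Type u} [NonUnitalCStarAlgebra A] (hS : IsSAWStar A)
    (hO : HasOrthogonalSequence A) : SeparatesASequence A := by
  classical
  obtain ⟨h, hsa, hne, horth⟩ := hO
  let w : ℕ → ℝ := fun n => (1 / 2) ^ n / (1 + ‖h n‖)
  have hw : ∀ n, 0 < w n := fun n => by positivity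
  have hsum : ∀ S : Set ℕ, Summable fun n => if n ∈ S then ((w n : ℝ) : ℂ) • h n else 0 := by
    intro S
    apply Summable.of_norm_bounded (g := fun n => (1 / 2 : ℝ) ^ n) summable_geometric_two
    intro n
    split_ifs
    · rw [norm_smul, Complex.norm_real, Real.norm_of_nonneg (hw n).le]
      show (1 / 2) ^ n / (1 + ‖h n‖) * ‖h n‖ ≤ (1 / 2) ^ n
      rw [div_mul_eq_mul_div, div_le_iff₀ (by positivity)]
      have : (0 : ℝ) ≤ (1 / 2) ^ n := by positivity
      nlinarith [norm_nonneg (h n)]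
    · rw [norm_zero]; positivity
  let a : Set ℕ → A := fun S => ∑' n, if n ∈ S then ((w n : ℝ) : ℂ) • h n else 0
  have ha : ∀ S m, a S * h m = if m ∈ S then ((w m : ℝ) : ℂ) • (h m * h m) else 0 := by
    intro S m
    have h1 : a S * h m = ∑' n, (if n ∈ S then ((w n : ℝ) : ℂ) • h n else 0) * h m :=
      ((hsum S).tsum_mul_right (h m)).symm
    rw [h1, tsum_eq_single m]
    · split_ifs
      · rw [smul_mul_assoc]
      · rw [zero_mul]
    · intro n hn
      split_ifs
      · rw [smul_mul_assoc, horth n m hn, smul_zero]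
      · rw [zero_mul]
  have hstar : ∀ S, IsSelfAdjoint (a S) := by
    intro S
    show star (a S) = a S
    have h1 : star (a S) = ∑' n, star (if n ∈ S then ((w n : ℝ) : ℂ) • h n else 0) := tsum_star
    rw [h1]
    congr 1
    funext n
    split_ifs
    · rw [star_smul, (hsa n).star_eq]
      simp
    · rw [star_zero]
  have hab : ∀ S T : Set ℕ, Disjoint S T → a S * a T = 0 := by
    intro S T hST
    have h1 : a S * a T = ∑' n, a S * (if n ∈ T then ((w n : ℝ) : ℂ) • h n else 0) :=
      ((hsum T).tsum_mul_left (a S)).symm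
    rw [h1]
    have : (fun n => a S * (if n ∈ T then ((w n : ℝ) : ℂ) • h n else 0)) = fun _ => 0 := by
      funext n
      split_ifs with hn
      · rw [mul_smul_comm, ha, if_neg (fun hnS => Set.disjoint_left.1 hST hnS hn), smul_zero]
      · rw [mul_zero]
    rw [this, tsum_zero]
  refine ⟨fun n => h n * h n * h n, fun n => cube_ne (hsa n) (hne n), fun S => ?_⟩
  obtain ⟨e, he, he1, he2⟩ := hS (a S) (a Sᶜ) (by
    rw [(hstar S).star_eq, (hstar Sᶜ).star_eq, mul_assoc, ← mul_assoc (a S) (a Sᶜ),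
      hab S Sᶜ disjoint_compl_right, zero_mul, mul_zero])
  rw [(hstar S).star_eq] at he1
  rw [(hstar Sᶜ).star_eq] at he2
  have hcube : ∀ S m, m ∈ S → a S * a S * h m =
      (((w m : ℝ) : ℂ) * ((w m : ℝ) : ℂ)) • (h m * h m * h m) := by
    intro S m hm
    rw [mul_assoc, ha, if_pos hm, mul_smul_comm, ← mul_assoc, ha, if_pos hm, smul_mul_assoc,
      smul_smul]
  have hw0 : ∀ m, (((w m : ℝ) : ℂ) * ((w m : ℝ) : ℂ)) ≠ 0 := by
    intro m
    have : ((w m : ℝ) : ℂ) ≠ 0 := by exact_mod_cast (hw m).ne'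
    exact mul_ne_zero this this
  refine ⟨e, he, fun m hm => ?_, fun m hm => ?_⟩
  · have h1 : e * (a S * a S * h m) = a S * a S * h m := by
      rw [← mul_assoc, he1]
    rw [hcube S m hm, mul_smul_comm] at h1
    exact smul_right_injective _ (hw0 m) h1
  · have h1 : e * (a Sᶜ * a Sᶜ * h m) = 0 := by
      rw [← mul_assoc, he2, zero_mul]
    rw [hcube Sᶜ m hm, mul_smul_comm] at h1
    rcases smul_eq_zero.1 h1 with h2 | h2
    · exact absurd h2 (hw0 m)
    · exact h2

end Vale.Agent.P070
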