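import Vale.Agent.P070.Defs

/-! The definitions used in the statement. -/

open scoped BoundedContinuousFunction

namespace Vale.Agent.P070

universe u

/-- Representations of the C*-algebra `A` on the Hilbert space `H`: the *-homomorphisms from `A`
to the bounded operators on `H`. -/
def Rep (A H : Type u) [NonUnitalCStarAlgebra A] [NormedAddCommGroup H]
    [InnerProductSpace ℂ H] [CompleteSpace H] : Type u := A →⋆ₙₐ[ℂ] (H →L[ℂ] H)

section

variable {A H H₁ H₂ B : Type u} [NonUnitalCStarAlgebra A] [NonUnitalCStarAlgebra B]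
    [NormedAddCommGroup H] [InnerProductSpace ℂ H] [CompleteSpace H]
    [NormedAddCommGroup H₁] [InnerProductSpace ℂ H₁] [CompleteSpace H₁]
    [NormedAddCommGroup H₂] [InnerProductSpace ℂ H₂] [CompleteSpace H₂]

/-- `π(a) x`. -/
noncomputable def Rep.act (π : Rep A H) (a : A) (x : H) : H :=
  DFunLike.coe (F := A →⋆ₙₐ[ℂ] (H →L[ℂ] H)) π a x

/-- `π` is nonzero and `0`, `H` are the only closed invariant subspaces. -/
def Rep.Irreducible (π : Rep A H) : Prop :=
  (∃ a x, π.act a x ≠ 0) ∧ ∀ K : Submodule ℂ H, IsClosed (K : Set H) →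
    (∀ a, ∀ x ∈ K, π.act a x ∈ K) → K = ⊥ ∨ K = ⊤

/-- unitary equivalence. -/
def Rep.Equivalent (π₁ : Rep A H₁) (π₂ : Rep A H₂) : Prop :=
  ∃ U : H₁ ≃ₗᵢ[ℂ] H₂, ∀ a x, U (π₁.act a x) = π₂.act a (U x)

/-- `π` contains an orthonormal family of joint eigenvectors of the subalgebra `j : B → A`, one
for each character (nonzero multiplicative continuous functional) of `B`. -/
def Rep.HasEigenvectors (π : Rep A H) (j : B →⋆ₙₐ[ℂ] A) : Prop :=
  ∃ v : WeakDual.characterSpace ℂ B → H, Orthonormal ℂ v ∧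
    ∀ χ b, π.act (j b) (v χ) = χ b • v χ

end

/-- Property (N): `A ≠ 0` and any two irreducible representations are unitarily equivalent. -/
def Naimark (A : Type u) [NonUnitalCStarAlgebra A] : Prop :=
  Nontrivial A ∧
  ∀ (H₁ H₂ : Type u) [NormedAddCommGroup H₁] [InnerProductSpace ℂ H₁] [CompleteSpace H₁]
    [NormedAddCommGroup H₂] [InnerProductSpace ℂ H₂] [CompleteSpace H₂]
    (π₁ : Rep A H₁) (π₂ : Rep A H₂), π₁.Irreducible → π₂.Irreducible → π₁.Equivalent π₂

/-- Every irreducible representation of `A` contains such a family. -/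
def AllHaveEigenvectors {A B : Type u} [NonUnitalCStarAlgebra A] [NonUnitalCStarAlgebra B]
    (j : B →⋆ₙₐ[ℂ] A) : Prop :=
  ∀ (H : Type u) [NormedAddCommGroup H] [InnerProductSpace ℂ H] [CompleteSpace H]
    (π : Rep A H), π.Irreducible → π.HasEigenvectors j

/-- `A` separates a sequence of nonzero elements: for every set `S` of indices some self-adjoint
`x` satisfies `x e_n = e_n` for `n` in `S` and `x e_n = 0` for the other `n`. -/
def SeparatesASequence (A : Type u) [NonUnitalCStarAlgebra A] : Prop :=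
  ∃ e : ℕ → A, (∀ n, e n ≠ 0) ∧ ∀ S : Set ℕ, ∃ x : A, IsSelfAdjoint x ∧
    (∀ n ∈ S, x * e n = e n) ∧ ∀ n ∉ S, x * e n = 0

/-- the same for a family indexed by `ι`. -/
def SeparatesAFamily (ι : Type u) (A : Type u) [NonUnitalCStarAlgebra A] : Prop :=
  ∃ e : ι → A, (∀ i, e i ≠ 0) ∧ ∀ S : Set ι, ∃ x : A, IsSelfAdjoint x ∧
    (∀ i ∈ S, x * e i = e i) ∧ ∀ i ∉ S, x * e i = 0

/-- `A` is a SAW*-algebra (Pedersen): two orthogonal positive elements `a* a`, `b* b` have a local
unit: some self-adjoint `e` satisfies `e (a* a) = a* a` and `e (b* b) = 0`. -/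
def IsSAWStar (A : Type u) [NonUnitalCStarAlgebra A] : Prop :=
  ∀ a b : A, (star a * a) * (star b * b) = 0 →
    ∃ e : A, IsSelfAdjoint e ∧ e * (star a * a) = star a * a ∧ e * (star b * b) = 0

/-- `A` contains an infinite sequence of nonzero pairwise orthogonal self-adjoint elements. -/
def HasOrthogonalSequence (A : Type u) [NonUnitalCStarAlgebra A] : Prop :=
  ∃ h : ℕ → A, (∀ n, IsSelfAdjoint (h n)) ∧ (∀ n, h n ≠ 0) ∧ ∀ m n, m ≠ n → h m * h n = 0

/-- `A` contains a copy of the C*-algebra of bounded complex sequences. -/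
def ContainsBoundedSequences (A : Type u) [NonUnitalCStarAlgebra A] : Prop :=
  ∃ j : (ℕ →ᵇ ℂ) →⋆ₙₐ[ℂ] A, Function.Injective j

lemma irred_of {A H : Type u} [NonUnitalCStarAlgebra A] [NormedAddCommGroup H]
    [InnerProductSpace ℂ H] [CompleteSpace H] (π : A →⋆ₙₐ[ℂ] (H →L[ℂ] H)) :
    Rep.Irreducible (A := A) (H := H) π ↔ Irred π := by
  constructor
  · rintro ⟨⟨a, x, h⟩, h2⟩
    refine ⟨⟨a, fun h0 => h ?_⟩, h2⟩
    show π a x = 0
    rw [h0]; rfl
  · rintro ⟨⟨a, h⟩, h2⟩
    refine ⟨?_, h2⟩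
    by_contra hcon
    push Not at hcon
    apply h
    ext x
    exact hcon a x

lemma propN_of {A : Type u} [NonUnitalCStarAlgebra A] (h : Naimark A) : PropertyN A := by
  refine ⟨h.1, fun H₁ H₂ _ _ _ _ _ _ π₁ π₂ h1 h2 => ?_⟩
  exact h.2 H₁ H₂ π₁ π₂ ((irred_of π₁).2 h1) ((irred_of π₂).2 h2)

end Vale.Agent.P070
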