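import Vale.Agent.P070.Face
import Vale.Agent.P070.Stmt

/-! Algebras that separate a sequence: the density is at least `2 ^ (2 ^ ℵ₀)`. -/

open scoped ComplexOrder InnerProductSpace BoundedContinuousFunction
open Set

namespace Vale.Agent.P070

universe u v

/-- an orthonormal family in a cyclic representation injects into any dense set. -/
theorem inj_of_orthonormal {A : Type u} [NonUnitalCStarAlgebra A]
    {H : Type u} [NormedAddCommGroup H] [InnerProductSpace ℂ H] [CompleteSpace H]
    (π : A →⋆ₙₐ[ℂ] (H →L[ℂ] H)) (hirr : Irred π) (ξ : H) (a₀ : A) (hξ : π a₀ ξ ≠ 0)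
    {ι : Type v} (v : ι → H) (hvo : Orthonormal ℂ v) (D : Set A) (hD : Dense D) :
    ∃ f : ι → D, Function.Injective f := by
  have hcyc := cyclic π hirr ξ a₀ hξ
  have hcont : Continuous fun a => π a ξ := by
    have : Continuous π :=
      AddMonoidHomClass.continuous_of_bound π 1 (fun a => by
        rw [one_mul]; exact NonUnitalStarAlgHom.norm_apply_le π a)
    exact this.clm_apply continuous_const
  have hdense : DenseRange fun d : D => π (d : A) ξ :=
    hcyc.comp hD.denseRange_val hcont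
  have happ : ∀ χ, ∃ d : D, dist (v χ) (π (d : A) ξ) < 1 / 2 := fun χ =>
    hdense.exists_dist_lt (v χ) (by norm_num)
  choose f hf using happ
  refine ⟨f, fun χ χ' h => ?_⟩
  by_contra hne
  have h1 := hf χ
  have h2 := hf χ'
  rw [← h] at h2
  have h3 : dist (v χ) (v χ') < 1 := by
    calc dist (v χ) (v χ') ≤ dist (v χ) (π (f χ : A) ξ) + dist (v χ') (π (f χ : A) ξ) :=
          dist_triangle_right _ _ _
      _ < 1 := by linarith
  rw [dist_eq_norm] at h3
  have h4 : ‖v χ - v χ'‖ ^ 2 = 2 := by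
    have h5 : ⟪v χ - v χ', v χ - v χ'⟫_ℂ = 2 := by
      rw [inner_sub_left, inner_sub_right, inner_sub_right, hvo.2 hne,
        hvo.2 (Ne.symm hne), inner_self_eq_norm_sq_to_K, inner_self_eq_norm_sq_to_K,
        hvo.1, hvo.1]
      norm_num
    rw [inner_self_eq_norm_sq_to_K] at h5
    have h6 : ((‖v χ - v χ'‖ ^ 2 : ℝ) : ℂ) = 2 := by push_cast; exact h5
    exact_mod_cast h6
  nlinarith [norm_nonneg (v χ - v χ')]

theorem inj_of_separated {A : Type u} [NonUnitalCStarAlgebra A] (hN : PropertyN A) (e : ℕ → A)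
    (he : ∀ n, e n ≠ 0) (x : Set ℕ → A) (hsa : ∀ S, IsSelfAdjoint (x S))
    (hx1 : ∀ S n, n ∈ S → x S * e n = e n) (hx0 : ∀ S n, n ∉ S → x S * e n = 0)
    (D : Set A) (hD : Dense D) :
    ∃ f : Ultrafilter ℕ → D, Function.Injective f := by
  obtain ⟨H, i1, i2, i3, π, ξ, hirr, hξ, hA, -⟩ :=
    exists_ultra_rep e he x hx1 hx0 (Filter.hyperfilter ℕ)
  have key : ∀ V : Ultrafilter ℕ, ∃ v : H, ‖v‖ = 1 ∧ (∀ S ∈ V, π (x S) v = v) ∧
      ∀ S ∉ V, π (x S) v = 0 := by
    intro V
    obtain ⟨H', i1', i2', i3', π', ξ', hirr', hξ', hA', hB'⟩ :=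
      exists_ultra_rep e he x hx1 hx0 V
    obtain ⟨W, hW⟩ := hN.2 H' H π' π hirr' hirr
    refine ⟨W ξ', by rw [W.norm_map, hξ'], fun S hS => ?_, fun S hS => ?_⟩
    · rw [← hW, hA' S hS]
    · rw [← hW, hB' S hS, map_zero]
  choose v hv hv1 hv0 using key
  have hadj : ∀ a x y, ⟪π a x, y⟫_ℂ = ⟪x, π (star a) y⟫_ℂ := by
    intro a x y
    rw [map_star, ContinuousLinearMap.star_eq_adjoint, ContinuousLinearMap.adjoint_inner_right]
  have hvo : Orthonormal ℂ v := by
    refine ⟨hv, fun V W hne => ?_⟩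
    have : ∃ S, S ∈ V ∧ S ∉ W := by
      by_contra hcon
      push Not at hcon
      apply hne
      have hle : (W : Filter ℕ) ≤ V := fun S hS => hcon S hS
      exact (Ultrafilter.coe_le_coe.1 hle).symm
    obtain ⟨S, hSV, hSW⟩ := this
    show ⟪v V, v W⟫_ℂ = 0
    rw [← hv1 V S hSV, hadj, (hsa S).star_eq, hv0 W S hSW, inner_zero_right]
  have hne : π (x Set.univ) ξ ≠ 0 := by
    rw [hA Set.univ Filter.univ_mem]
    intro h
    rw [h, norm_zero] at hξ
    exact zero_ne_one hξ
  exact inj_of_orthonormal π hirr ξ _ hne v hvo D hD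

theorem card_of_separated {A : Type u} [NonUnitalCStarAlgebra A] (hN : PropertyN A)
    (hs : SeparatesASequence A) (D : Set A) (hD : Dense D) :
    2 ^ Cardinal.continuum ≤ Cardinal.mk D := by
  obtain ⟨e, he, hx⟩ := hs
  choose x hsa hx1 hx0 using hx
  obtain ⟨f, hf⟩ := inj_of_separated hN e he x hsa hx1 hx0 D hD
  obtain ⟨g, hg⟩ := exists_inj_ultra
  have h1 := Cardinal.lift_mk_le_lift_mk_of_injective (hf.comp hg)
  simpa [Cardinal.mk_set, Cardinal.lift_power, Cardinal.two_power_aleph0] using h1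

open Classical in
/-- indicator functions. -/
noncomputable def ind (S : Set ℕ) : ℕ →ᵇ ℂ :=
  BoundedContinuousFunction.ofNormedAddCommGroup
      (fun n => if n ∈ S then (1 : ℂ) else 0) (continuous_of_discreteTopology) 1 (by
        intro n
        split_ifs <;> simp)

lemma ind_apply (S : Set ℕ) (n : ℕ) [Decidable (n ∈ S)] :
    ind S n = if n ∈ S then (1 : ℂ) else 0 := by
  show (@ite ℂ (n ∈ S) (Classical.propDecidable _) 1 0) = _
  congr

theorem separates_of_contains {A : Type u} [NonUnitalCStarAlgebra A]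
    (j : (ℕ →ᵇ ℂ) →⋆ₙₐ[ℂ] A) (hj : Function.Injective j) : SeparatesASequence A := by
  classical
  refine ⟨fun n => j (ind {n}), fun n h => ?_, fun S => ⟨j (ind S), ?_, fun n hn => ?_,
    fun n hn => ?_⟩⟩
  · have h1 : ind {n} = 0 := hj (h.trans (map_zero j).symm)
    have h2 := DFunLike.congr_fun h1 n
    rw [ind_apply] at h2
    simp at h2
  · have : star (ind S) = ind S := by
      ext n
      show star (ind S n) = ind S n
      rw [ind_apply]
      split_ifs <;> simp
    rw [IsSelfAdjoint, ← map_star, this]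
  · show j (ind S) * j (ind {n}) = j (ind {n})
    rw [← map_mul]
    congr 1
    ext m
    show ind S m * ind {n} m = ind {n} m
    rw [ind_apply, ind_apply]
    by_cases hm : m = n
    · subst hm; simp [hn]
    · simp [hm]
  · show j (ind S) * j (ind {n}) = 0
    rw [← map_mul]
    have : ind S * ind {n} = 0 := by
      ext m
      show ind S m * ind {n} m = 0
      rw [ind_apply, ind_apply]
      by_cases hm : m = n
      · subst hm; simp [hn]
      · simp [hm]
    rw [this, map_zero]

end Vale.Agent.P070
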