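import Vale.Agent.P070.Stmt

/-! A self-adjoint element with infinite spectrum gives an infinite orthogonal sequence. -/

open Set

namespace Vale.Agent.P070

universe u

theorem orth_of_infinite {A : Type u} [NonUnitalCStarAlgebra A] (a : A) (ha : IsSelfAdjoint a)
    (hinf : (quasispectrum ℝ a).Infinite) : HasOrthogonalSequence A := by
  classical
  have : Infinite (quasispectrum ℝ a) := hinf.to_subtype
  obtain ⟨V, hVi, hVo, hVd⟩ := exists_seq_infinite_isOpen_pairwise_disjoint (quasispectrum ℝ a)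
  -- the closed complements inside the spectrum
  let Z : ℕ → Set ℝ := fun n => Subtype.val '' ((V n)ᶜ : Set (quasispectrum ℝ a))
  have hσ : IsCompact (quasispectrum ℝ a) := quasispectrum.isCompact a
  have hZc : ∀ n, IsClosed (Z n) := fun n =>
    (hσ.isClosed.isClosedEmbedding_subtypeVal).isClosedMap _ (hVo n).isClosed_compl
  let f : ℕ → ℝ → ℝ := fun n x => x * Metric.infDist x (Z n)
  have hf : ∀ n, Continuous (f n) := fun n => continuous_id.mul (Metric.continuous_infDist_pt _)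
  have hf0 : ∀ n, f n 0 = 0 := fun n => by simp [f]
  have hdisj : ∀ m n, m ≠ n → ∀ x ∈ quasispectrum ℝ a, f m x * f n x = 0 := by
    intro m n hmn x hx
    have hd : Disjoint (V m) (V n) := hVd hmn
    have : (⟨x, hx⟩ : quasispectrum ℝ a) ∉ V m ∨ (⟨x, hx⟩ : quasispectrum ℝ a) ∉ V n := by
      by_contra hcon
      push Not at hcon
      exact Set.disjoint_left.1 hd hcon.1 hcon.2
    rcases this with h | h
    · have h1 : x ∈ Z m := ⟨⟨x, hx⟩, h, rfl⟩
      simp [f, Metric.infDist_zero_of_mem h1]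
    · have h1 : x ∈ Z n := ⟨⟨x, hx⟩, h, rfl⟩
      simp [f, Metric.infDist_zero_of_mem h1]
  have hne : ∀ n, ∃ x ∈ quasispectrum ℝ a, f n x ≠ 0 := by
    intro n
    obtain ⟨y, hyV, hy0⟩ : ∃ y ∈ V n, (y : ℝ) ≠ 0 := by
      by_contra hcon
      push Not at hcon
      apply hVi n
      apply Set.Subsingleton.finite
      intro y hy z hz
      exact Subtype.ext ((hcon y hy).trans (hcon z hz).symm)
    refine ⟨y, y.2, mul_ne_zero hy0 ?_⟩
    have hZne : (Z n).Nonempty := by
      obtain ⟨z, hz⟩ := (hVi (n + 1)).nonempty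
      refine ⟨z, z, ?_, rfl⟩
      intro hzn
      exact Set.disjoint_left.1 (hVd (show n ≠ n + 1 by omega)) hzn hz
    intro h0
    have h1 : (y : ℝ) ∈ closure (Z n) := (Metric.mem_closure_iff_infDist_zero hZne).2 h0
    rw [(hZc n).closure_eq] at h1
    obtain ⟨z, hz, hzy⟩ := h1
    exact hz (by rwa [Subtype.ext hzy])
  refine ⟨fun n => cfcₙ (f n) a, fun n => cfcₙ_predicate (f n) a, fun n h0 => ?_, fun m n hmn => ?_⟩
  · obtain ⟨x, hx, hfx⟩ := hne n
    have h0' : cfcₙ (f n) a = cfcₙ (fun _ => (0 : ℝ)) a := by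
      rw [cfcₙ_const_zero ℝ a]; exact h0
    have h1 := eqOn_of_cfcₙ_eq_cfcₙ (a := a) h0' ha (hf n).continuousOn (hf0 n)
      continuousOn_const rfl
    exact hfx (h1 hx)
  · show cfcₙ (f m) a * cfcₙ (f n) a = 0
    rw [← cfcₙ_mul (f m) (f n) a (hf m).continuousOn (hf0 m) (hf n).continuousOn (hf0 n)]
    rw [cfcₙ_congr (g := fun _ => (0 : ℝ)) (fun x hx => hdisj m n hmn x hx)]
    exact cfcₙ_const_zero ℝ a

end Vale.Agent.P070
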